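import Vale.Agent.P315.H36.Bound

/-! The tables of the base algorithm as pure recursions: Lipschitz closure of a row by two sweeps,
window rows, block rows; soundness (`dpre ≤ F`) and the upper bounds `Pm.Tab`. -/

set_option autoImplicit false

namespace Vale.Agent.P315.H142

open Vale.Agent.P315 Vale.Agent.P315.H36

/-! ### Lipschitz closure -/

/-- Forward sweep. -/
def fwd (g : ℕ) (c : ℕ → ℕ) : ℕ → ℕ
  | 0 => c 0
  | j + 1 => min (c (j + 1)) (fwd g c j + g)

/-- Backward sweep from `J`: the value at `J - t`. -/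
def bwd (g : ℕ) (c : ℕ → ℕ) (J : ℕ) : ℕ → ℕ
  | 0 => c J
  | t + 1 => min (c (J - (t + 1))) (bwd g c J t + g)

/-- Lipschitz closure on `0, …, J`. -/
def lipc (g : ℕ) (c : ℕ → ℕ) (J j : ℕ) : ℕ := bwd g (fwd g c) J (J - j)

theorem fwd_le (g : ℕ) (c : ℕ → ℕ) (j : ℕ) : fwd g c j ≤ c j := by
  cases j with
  | zero => exact le_rfl
  | succ j => exact min_le_left _ _

theorem bwd_le (g : ℕ) (c : ℕ → ℕ) (J t : ℕ) : bwd g c J t ≤ c (J - t) := by
  cases t with
  | zero => exact le_rfl
  | succ t => exact min_le_left _ _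

theorem lipc_le (g : ℕ) (c : ℕ → ℕ) {J j : ℕ} (hj : j ≤ J) : lipc g c J j ≤ c j := by
  refine (bwd_le _ _ _ _).trans ?_
  rw [Nat.sub_sub_self hj]
  exact fwd_le _ _ _

theorem lipc_top (g : ℕ) (c : ℕ → ℕ) (J : ℕ) : lipc g c J J = fwd g c J := by
  simp [lipc, bwd]

theorem lipc_step (g : ℕ) (c : ℕ → ℕ) {J j : ℕ} (hj : j < J) :
    lipc g c J j = min (fwd g c j) (lipc g c J (j + 1) + g) := by
  unfold lipc
  obtain ⟨t, ht⟩ : ∃ t, J - j = t + 1 := ⟨J - j - 1, by omega⟩
  rw [ht, show J - (j + 1) = t by omega]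
  simp only [bwd]
  rw [show J - (t + 1) = j by omega]

theorem lipc_down (g : ℕ) (c : ℕ → ℕ) {J j : ℕ} (hj : j < J) :
    lipc g c J j ≤ lipc g c J (j + 1) + g := by
  rw [lipc_step g c hj]; exact min_le_right _ _

theorem lipc_up (g : ℕ) (c : ℕ → ℕ) {J j : ℕ} (hj : j < J) :
    lipc g c J (j + 1) ≤ lipc g c J j + g := by
  rw [lipc_step g c hj]
  have h1 : lipc g c J (j + 1) ≤ fwd g c (j + 1) := by
    unfold lipc
    refine (bwd_le _ _ _ _).trans ?_
    rw [Nat.sub_sub_self (by omega)]
  have h2 : fwd g c (j + 1) ≤ fwd g c j + g := min_le_right _ _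
  omega

theorem lipc_lip (g : ℕ) (c : ℕ → ℕ) {J : ℕ} : ∀ {j j' : ℕ}, j ≤ J → j' ≤ J →
    lipc g c J j ≤ lipc g c J j' + (g * (j - j') + g * (j' - j)) := by
  have up : ∀ t j, j + t ≤ J → lipc g c J (j + t) ≤ lipc g c J j + g * t ∧
      lipc g c J j ≤ lipc g c J (j + t) + g * t := by
    intro t
    induction t with
    | zero => intro j _; simp
    | succ t ih =>
      intro j hj
      obtain ⟨h1, h2⟩ := ih j (by omega)
      have h3 := lipc_up g c (J := J) (j := j + t) (by omega)
      have h4 := lipc_down g c (J := J) (j := j + t) (by omega)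
      have e : g * (t + 1) = g * t + g := by ring
      rw [show j + (t + 1) = j + t + 1 by ring, e]
      omega
  intro j j' hj hj'
  rcases le_total j j' with h | h
  · obtain ⟨h1, h2⟩ := up (j' - j) j (by omega)
    rw [show j + (j' - j) = j' by omega] at h1 h2
    rw [show j - j' = 0 by omega]
    omega
  · obtain ⟨h1, h2⟩ := up (j - j') j' (by omega)
    rw [show j' + (j - j') = j by omega] at h1 h2
    rw [show j' - j = 0 by omega]
    omega

/-- The closure is the largest Lipschitz function below `c`. -/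
theorem le_lipc (g : ℕ) (c φ : ℕ → ℕ) {J : ℕ} (h : ∀ j ≤ J, φ j ≤ c j)
    (h1 : ∀ j < J, φ (j + 1) ≤ φ j + g) (h2 : ∀ j < J, φ j ≤ φ (j + 1) + g) {j : ℕ}
    (hj : j ≤ J) : φ j ≤ lipc g c J j := by
  have hf : ∀ j ≤ J, φ j ≤ fwd g c j := by
    intro j
    induction j with
    | zero => intro hj; exact h 0 hj
    | succ j ih =>
      intro hj
      have i1 := ih (by omega)
      have i2 := h1 j (by omega)
      have i3 := h (j + 1) hj
      simp only [fwd]
      omega
  have hb : ∀ t ≤ J, φ (J - t) ≤ bwd g (fwd g c) J t := by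
    intro t
    induction t with
    | zero => intro _; exact hf J le_rfl
    | succ t ih =>
      intro ht
      have i1 := ih (by omega)
      have i2 := h2 (J - (t + 1)) (by omega)
      rw [show J - (t + 1) + 1 = J - t by omega] at i2
      have i3 := hf (J - (t + 1)) (by omega)
      simp only [bwd]
      omega
  have := hb (J - j) (by omega)
  rwa [Nat.sub_sub_self hj] at this

/-! ### Rows -/

section
variable (P : Pm) (A B : ℕ → ℕ → ℕ)

/-- Largest index. -/
def JJ : ℕ := P.M + P.b * P.v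

/-- Candidates after window `i`. -/
def step1 (i : ℕ) (row : ℕ → ℕ) (j : ℕ) : ℕ :=
  if P.v ≤ j ∧ j < P.M + P.v then min (row j + P.w) (row (j - P.v) + A i (j - P.v))
  else row j + P.w

/-- Candidates after block `a`. -/
def stepB (a : ℕ) (u row : ℕ → ℕ) (j : ℕ) : ℕ :=
  if P.b * P.v ≤ j ∧ j < P.M + P.b * P.v then min (u j) (row (j - P.b * P.v) + B a (j - P.b * P.v))
  else u j

/-- Rows inside a block. -/
def winr (a : ℕ) (row : ℕ → ℕ) : ℕ → ℕ → ℕ
  | 0 => row
  | r + 1 => lipc P.g (step1 P A (a * P.b + r) (winr a row r)) (JJ P)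

/-- Rows at block boundaries. -/
def blk : ℕ → ℕ → ℕ
  | 0 => fun j => j * P.g
  | a + 1 => lipc P.g (stepB P B a (winr P A a (blk a) P.b) (blk a)) (JJ P)

/-- The table. -/
def FF (i j : ℕ) : ℕ := winr P A (i / P.b) (blk P A B (i / P.b)) (i % P.b) j

/-- The output for the end `ly`. -/
def outF : ℕ := min (blk P A B P.K (P.ly / P.g) + (P.ly - P.ly / P.g * P.g))
  (blk P A B P.K (P.ly / P.g + 1) + ((P.ly / P.g + 1) * P.g - P.ly)) + (P.lx - P.k * P.w)

/-- Soundness of the tables. -/
structure Low : Prop where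
  A : ∀ i < P.k, ∀ j < P.M, P.dxy i j ≤ A i j
  B : ∀ a < P.K, ∀ j < P.M, P.dbl (a * P.b) j ≤ B a j

end

section
variable {P : Pm} {A B : ℕ → ℕ → ℕ}

theorem dpre_zero (j : ℕ) : P.dpre 0 j = j * P.g := by
  unfold Pm.dpre; rw [Nat.zero_mul, dist_zero_left]

theorem dpre_right (i j : ℕ) : P.dpre i (j + 1) ≤ P.dpre i j + P.g := by
  unfold Pm.dpre
  have h := dist_add P.X P.Y P.px (i * P.w) P.py (j * P.g) 0 P.g
  rw [dist_zero_left] at h
  rw [show (j + 1) * P.g = j * P.g + P.g by ring]
  exact h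

theorem dpre_left (i j : ℕ) : P.dpre i j ≤ P.dpre i (j + 1) + P.g := by
  unfold Pm.dpre
  have h := (dist_grow P.X P.Y P.px (i * P.w) (a := P.py) (q1 := P.py) (q2 := P.py + j * P.g)
    (b := P.py + (j + 1) * P.g) le_rfl (by omega) (by rw [show (j + 1) * P.g = j * P.g + P.g by ring]; omega)).1
  have e : (j + 1) * P.g = j * P.g + P.g := by ring
  rw [e] at h ⊢
  rw [show P.py + j * P.g - P.py = j * P.g by omega,
    show P.py + (j * P.g + P.g) - P.py = j * P.g + P.g by omega] at h
  omega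

theorem dpre_del (i j : ℕ) : P.dpre (i + 1) j ≤ P.dpre i j + P.w := by
  unfold Pm.dpre
  have h := dist_add P.X P.Y P.px (i * P.w) P.py (j * P.g) P.w 0
  rw [dist_zero_right] at h
  rw [show (i + 1) * P.w = i * P.w + P.w by ring]
  exact h

theorem dpre_win (i j : ℕ) : P.dpre (i + 1) (j + P.v) ≤ P.dpre i j + P.dxy i j := by
  unfold Pm.dpre Pm.dxy
  have h := dist_add P.X P.Y P.px (i * P.w) P.py (j * P.g) P.w P.w
  rw [show (i + 1) * P.w = i * P.w + P.w by ring,
    show (j + P.v) * P.g = j * P.g + P.w by unfold Pm.w; ring]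
  exact h

theorem dpre_blk (a j : ℕ) : P.dpre ((a + 1) * P.b) (j + P.b * P.v) ≤
    P.dpre (a * P.b) j + P.dbl (a * P.b) j := by
  unfold Pm.dpre Pm.dbl
  have h := dist_add P.X P.Y P.px (a * P.b * P.w) P.py (j * P.g) (P.b * P.w) (P.b * P.w)
  rw [show (a + 1) * P.b * P.w = a * P.b * P.w + P.b * P.w by ring,
    show (j + P.b * P.v) * P.g = j * P.g + P.b * P.w by unfold Pm.w; ring]
  exact h

theorem winr_ge (hL : Low P A B) {a : ℕ} (ha : a < P.K) {row : ℕ → ℕ}
    (hrow : ∀ j ≤ JJ P, P.dpre (a * P.b) j ≤ row j) : ∀ r ≤ P.b, ∀ j ≤ JJ P,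
    P.dpre (a * P.b + r) j ≤ winr P A a row r j := by
  intro r
  induction r with
  | zero => intro _; exact hrow
  | succ r ih =>
    intro hr j hj
    have hi : a * P.b + r < P.k := by
      have : (a + 1) * P.b ≤ P.K * P.b := Nat.mul_le_mul_right _ ha
      have e : (a + 1) * P.b = a * P.b + P.b := by ring
      unfold Pm.k; omega
    rw [show a * P.b + (r + 1) = a * P.b + r + 1 by ring]
    refine le_lipc P.g _ (fun j => P.dpre (a * P.b + r + 1) j) ?_
      (fun j _ => dpre_right _ j) (fun j _ => dpre_left _ j) hj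
    intro j hj
    have h1 := dpre_del (P := P) (a * P.b + r) j
    have h2 := ih (by omega) j hj
    simp only [step1]
    split_ifs with hc
    · have h3 := dpre_win (P := P) (a * P.b + r) (j - P.v)
      rw [show j - P.v + P.v = j by omega] at h3
      have h4 := ih (by omega) (j - P.v) (by omega)
      have h5 := hL.A _ hi (j - P.v) (by omega)
      omega
    · omega

theorem blk_ge (hL : Low P A B) : ∀ a ≤ P.K, ∀ j ≤ JJ P,
    P.dpre (a * P.b) j ≤ blk P A B a j := by
  intro a
  induction a with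
  | zero =>
    intro _ j _
    rw [Nat.zero_mul, dpre_zero]
    exact le_rfl
  | succ a ih =>
    intro ha j hj
    have hw := winr_ge hL (a := a) (by omega) (row := blk P A B a) (ih (by omega))
    refine le_lipc P.g _ (fun j => P.dpre ((a + 1) * P.b) j) ?_
      (fun j _ => dpre_right _ j) (fun j _ => dpre_left _ j) hj
    intro j hj
    have h1 := hw P.b le_rfl j hj
    rw [show a * P.b + P.b = (a + 1) * P.b by ring] at h1
    simp only [stepB]
    split_ifs with hc
    · have h3 := dpre_blk (P := P) a (j - P.b * P.v)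
      rw [show j - P.b * P.v + P.b * P.v = j by omega] at h3
      have h4 := ih (by omega) (j - P.b * P.v) (by omega)
      have h5 := hL.B a (by omega) (j - P.b * P.v) (by omega)
      omega
    · exact h1

/-- Soundness of the output. -/
theorem outF_ge (hP : P.Ok) (hL : Low P A B) : P.D ≤ outF P A B := by
  have hb := hP.b0
  have hg := hP.g0
  have hM := hP.M0
  have hk1 := hP.k1
  set m := P.ly / P.g with hm
  have h1 : m * P.g ≤ P.ly := Nat.div_mul_le_self _ _
  have h2 : P.ly < m * P.g + P.g := Nat.lt_div_mul_add hg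
  have hmM : m < P.M := by
    rw [hm, Nat.div_lt_iff_lt_mul hg]; exact hM
  have a1 := blk_ge hL P.K le_rfl m (by unfold JJ; omega)
  have hv : m + 1 ≤ JJ P := by unfold JJ; omega
  have a2 := blk_ge hL P.K le_rfl (m + 1) hv
  have key : ∀ e : ℕ, P.D ≤ dist P.X P.Y P.px (P.k * P.w) P.py e + (P.ly - e) + (e - P.ly) +
      (P.lx - P.k * P.w) := by
    intro e
    unfold Pm.D
    have d1 := dist_add P.X P.Y P.px (P.k * P.w) P.py P.ly (P.lx - P.k * P.w) 0
    rw [dist_zero_right, Nat.add_zero, show P.k * P.w + (P.lx - P.k * P.w) = P.lx by omega] at d1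
    have d2 : dist P.X P.Y P.px (P.k * P.w) P.py P.ly ≤
        dist P.X P.Y P.px (P.k * P.w) P.py e + (P.ly - e) + (e - P.ly) := by
      rcases le_total e P.ly with h | h
      · have := (dist_grow P.X P.Y P.px (P.k * P.w) (a := P.py) (q1 := P.py) (q2 := P.py + e)
          (b := P.py + P.ly) le_rfl (by omega) (by omega)).2
        rw [show P.py + P.ly - P.py = P.ly by omega, show P.py + e - P.py = e by omega] at this
        omega
      · have := (dist_grow P.X P.Y P.px (P.k * P.w) (a := P.py) (q1 := P.py)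
          (q2 := P.py + P.ly) (b := P.py + e) le_rfl (by omega) (by omega)).1
        rw [show P.py + P.ly - P.py = P.ly by omega, show P.py + e - P.py = e by omega] at this
        omega
    omega
  have k1 := key (m * P.g)
  have k2 := key ((m + 1) * P.g)
  have e1 : P.dpre (P.K * P.b) m = dist P.X P.Y P.px (P.k * P.w) P.py (m * P.g) := rfl
  have e2 : P.dpre (P.K * P.b) (m + 1) =
    dist P.X P.Y P.px (P.k * P.w) P.py ((m + 1) * P.g) := rfl
  unfold outF
  rw [← hm]
  have e3 : (m + 1) * P.g = m * P.g + P.g := by ring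
  omega

/-! ### Upper bounds -/

theorem winr_succ_le (a : ℕ) (row : ℕ → ℕ) (r : ℕ) {j : ℕ} (hb : 0 < P.b) (hj : j < P.M) :
    winr P A a row (r + 1) (j + P.v) ≤ winr P A a row r j + A (a * P.b + r) j := by
  have hbv : P.v ≤ P.b * P.v := Nat.le_mul_of_pos_left _ hb
  refine (lipc_le P.g _ (J := JJ P) (j := j + P.v) (by unfold JJ; omega)).trans ?_
  simp only [step1]
  rw [if_pos ⟨by omega, by omega⟩, Nat.add_sub_cancel]
  exact min_le_right _ _

theorem blk_lip (a : ℕ) {j j' : ℕ} (hj : j ≤ JJ P) (hj' : j' ≤ JJ P) :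
    blk P A B a j ≤ blk P A B a j' + (P.g * (j - j') + P.g * (j' - j)) := by
  cases a with
  | zero =>
    simp only [blk]
    rcases le_total j j' with h | h
    · have := Nat.mul_le_mul_right P.g h
      omega
    · rw [Nat.mul_sub, Nat.mul_comm P.g j, Nat.mul_comm P.g j']
      omega
  | succ a => exact lipc_lip _ _ hj hj'

theorem winr_lip (a b' r : ℕ) {j j' : ℕ} (hj : j ≤ JJ P) (hj' : j' ≤ JJ P) :
    winr P A a (blk P A B b') r j ≤ winr P A a (blk P A B b') r j' +
      (P.g * (j - j') + P.g * (j' - j)) := by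
  cases r with
  | zero => exact blk_lip b' hj hj'
  | succ r => exact lipc_lip _ _ hj hj'

theorem FF_mul (hb : 0 < P.b) (a : ℕ) : FF P A B (a * P.b) = blk P A B a := by
  funext j
  unfold FF
  rw [Nat.mul_div_cancel _ hb, Nat.mul_mod_left]
  rfl

theorem FF_succ (hb : 0 < P.b) (i : ℕ) {j : ℕ} (hj : j < P.M) :
    FF P A B (i + 1) (j + P.v) ≤ FF P A B i j + A i j := by
  have e0 : i / P.b * P.b + i % P.b = i := Nat.div_add_mod' i P.b
  have h0 := winr_succ_le (A := A) (i / P.b) (blk P A B (i / P.b)) (i % P.b) hb hj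
  rw [e0] at h0
  have hlt := Nat.mod_lt i hb
  have hbv : P.v ≤ P.b * P.v := Nat.le_mul_of_pos_left _ hb
  by_cases h : i % P.b + 1 < P.b
  · have e1 : (i + 1) / P.b = i / P.b := by
      rw [Nat.div_eq_of_lt_le]
      · omega
      · have : (i / P.b + 1) * P.b = i / P.b * P.b + P.b := by ring
        omega
    have e2 : (i + 1) % P.b = i % P.b + 1 := by
      have := Nat.div_add_mod' (i + 1) P.b
      rw [e1] at this
      omega
    have : FF P A B (i + 1) (j + P.v) =
        winr P A (i / P.b) (blk P A B (i / P.b)) (i % P.b + 1) (j + P.v) := by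
      unfold FF; rw [e1, e2]
    rw [this]
    exact h0
  · have e2 : i + 1 = (i / P.b + 1) * P.b := by
      have : (i / P.b + 1) * P.b = i / P.b * P.b + P.b := by ring
      omega
    have h1 : FF P A B (i + 1) (j + P.v) = blk P A B (i / P.b + 1) (j + P.v) := by
      rw [e2, FF_mul hb]
    rw [h1]
    have h2 : blk P A B (i / P.b + 1) (j + P.v) ≤
        winr P A (i / P.b) (blk P A B (i / P.b)) P.b (j + P.v) := by
      refine (lipc_le P.g _ (J := JJ P) (j := j + P.v) (by unfold JJ; omega)).trans ?_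
      simp only [stepB]
      split_ifs
      · exact min_le_left _ _
      · exact le_rfl
    refine h2.trans ?_
    have e3 : i % P.b + 1 = P.b := by omega
    rw [e3] at h0
    exact h0

theorem FF_blk (hb : 0 < P.b) (a : ℕ) {j : ℕ} (hj : j < P.M) :
    FF P A B ((a + 1) * P.b) (j + P.b * P.v) ≤ FF P A B (a * P.b) j + B a j := by
  rw [FF_mul hb, FF_mul hb]
  refine (lipc_le P.g _ (J := JJ P) (j := j + P.b * P.v) (by unfold JJ; omega)).trans ?_
  simp only [stepB]
  rw [if_pos ⟨by omega, by omega⟩, Nat.add_sub_cancel]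
  exact min_le_right _ _

/-- **The recursive tables satisfy the upper bounds.** -/
theorem tab_FF (hP : P.Ok) {piv smp : Finset ℕ} {S : ℕ → Finset ℕ}
    (A1 : ∀ i < P.k, ∀ j < P.M, A i j ≤ 2 * P.w)
    (A2 : ∀ i < P.k, ∀ j < P.M, ∀ p ∈ piv, A i j ≤ P.dxy i p + P.dyy p j)
    (B1 : ∀ a < P.K, ∀ r ∈ smp, ∀ j ∈ S (a * P.b + r), B a (j - r * P.v) ≤
      P.dbl (a * P.b) (j - r * P.v)) :
    P.Tab A B (FF P A B) (outF P A B) piv smp S := by
  have hb := hP.b0
  have hg := hP.g0
  refine ⟨A1, A2, B1, ?_, ?_, fun i _ j hj => FF_succ hb i hj,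
    fun a _ j hj => FF_blk hb a hj, ?_⟩
  · unfold FF; simp [winr, blk]
  · intro i _ j hj j' hj'
    exact winr_lip _ _ _ hj hj'
  · intro j hj
    have e : FF P A B P.k j = blk P A B P.K j := by
      have := FF_mul (A := A) (B := B) hb P.K
      unfold Pm.k; rw [this]
    rw [e]
    set m := P.ly / P.g with hm
    have h1 : m * P.g ≤ P.ly := Nat.div_mul_le_self _ _
    have h2 : P.ly < m * P.g + P.g := Nat.lt_div_mul_add hg
    have hmM : m < P.M := by
      rw [hm, Nat.div_lt_iff_lt_mul hg]; exact hP.M0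
    have hj1 : j ≤ JJ P := by unfold JJ; omega
    have l1 := blk_lip (A := A) (B := B) P.K (j := m) (j' := j) (by unfold JJ; omega) hj1
    have l2 := blk_lip (A := A) (B := B) P.K (j := m + 1) (j' := j) (by unfold JJ; omega) hj1
    unfold outF
    rw [← hm]
    have e3 : (m + 1) * P.g = m * P.g + P.g := by ring
    rcases Nat.lt_or_ge m j with h | h
    · have e4 : P.g * (m + 1 - j) = 0 := by rw [show m + 1 - j = 0 by omega]; simp
      have e5 : P.g * (j - (m + 1)) = j * P.g - (m + 1) * P.g := by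
        rw [Nat.mul_sub, Nat.mul_comm P.g j, Nat.mul_comm P.g (m + 1)]
      have e6 : (m + 1) * P.g ≤ j * P.g := Nat.mul_le_mul_right _ h
      omega
    · have e4 : P.g * (j - m) = 0 := by rw [show j - m = 0 by omega]; simp
      have e5 : P.g * (m - j) = m * P.g - j * P.g := by
        rw [Nat.mul_sub, Nat.mul_comm P.g m, Nat.mul_comm P.g j]
      have e6 : j * P.g ≤ m * P.g := Nat.mul_le_mul_right _ h
      omega

end

end Vale.Agent.P315.H142
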