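import Vale.Agent.P315.H142.Rows
import Vale.Agent.P315.H36.Use

/-! The value for one pair of ends from the tables `A`, `B` (arrays `143`, `144`). Inputs: `141` end
in `x`, `143` end in `y`; `144` grid step, `146` windows per block, `160` window length in grid
steps, `161` number of grid points, `162` window length, `163` largest index, `164` block length in
grid steps. Output: register `152`. -/

set_option autoImplicit false

namespace Vale.Agent.P315.H142

open Vale.Agent.P315 Vale.Agent.P315.H36 Vale.Agent.P315.H817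

/-- Number of blocks for the end `lx`. -/
def setK : HP := .set 147 (ediv (.reg 141) (emul (.reg 146) (.reg 162)))

/-- The output from the last row. -/
def outHP : HP := .set 152 (eadd
  (emin
    (eadd (.get 147 (ediv (.reg 143) (.reg 144)))
      (esub (.reg 143) (emul (ediv (.reg 143) (.reg 144)) (.reg 144))))
    (eadd (.get 147 (eadd (ediv (.reg 143) (.reg 144)) (.lit 1)))
      (esub (emul (eadd (ediv (.reg 143) (.reg 144)) (.lit 1)) (.reg 144)) (.reg 143))))
  (esub (.reg 141) (emul (emul (.reg 147) (.reg 146)) (.reg 162))))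

/-- The value for the ends in registers `141`, `143`. -/
def endsHP : HP := .seq setK (.seq rowsHP outHP)

/-- What the value needs from the state. -/
structure EndEnv (P : Pm) (A B : ℕ → ℕ → ℕ) (s : State) : Prop where
  r144 : s.reg 144 = P.g
  r146 : s.reg 146 = P.b
  r160 : s.reg 160 = P.v
  r161 : s.reg 161 = P.M
  r162 : s.reg 162 = P.w
  r163 : s.reg 163 = JJ P
  r164 : s.reg 164 = P.b * P.v
  a143 : ∀ i < P.k, ∀ j < P.M, s.arr 143 (i * P.M + j) = A i j
  a144 : ∀ a < P.K, ∀ j < P.M, s.arr 144 (a * P.M + j) = B a j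
  l1 : JJ P + 1 ≤ s.reg 4
  l2 : P.K ≤ s.reg 4
  l3 : P.b ≤ s.reg 4
  b1 : JJ P * P.g + P.k * P.w ≤ s.reg 3
  b2 : P.k ≤ s.reg 3

variable {P : Pm} {A B : ℕ → ℕ → ℕ} {ρ : ℕ → ℕ}

theorem EndEnv.frame {s s' : State} {wr wa : List ℕ}
    (h : EndEnv P A B s) (hf : Frame s s' wr wa)
    (h1 : ∀ k ∈ wr, k ∈ [141, 143, 147, 152, 170, 171, 172, 173])
    (h2 : ∀ k ∈ wa, k ∈ [145, 146, 147]) : EndEnv P A B s' := by
  have hf := hf.mono h1 h2
  exact ⟨by rw [hf.reg 144 (by decide)]; exact h.r144, by rw [hf.reg 146 (by decide)]; exact h.r146,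
    by rw [hf.reg 160 (by decide)]; exact h.r160,
    by rw [hf.reg 161 (by decide)]; exact h.r161, by rw [hf.reg 162 (by decide)]; exact h.r162,
    by rw [hf.reg 163 (by decide)]; exact h.r163, by rw [hf.reg 164 (by decide)]; exact h.r164,
    by rw [hf.arr 143 (by decide)]; exact h.a143, by rw [hf.arr 144 (by decide)]; exact h.a144,
    by rw [hf.reg 4 (by decide)]; exact h.l1, by rw [hf.reg 4 (by decide)]; exact h.l2,
    by rw [hf.reg 4 (by decide)]; exact h.l3, by rw [hf.reg 3 (by decide)]; exact h.b1,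
    by rw [hf.reg 3 (by decide)]; exact h.b2⟩

theorem EndEnv.row {s : State} (h : EndEnv P A B s) {lx ly : ℕ}
    (hlx : lx / (P.b * P.w) ≤ P.K) (h147 : s.reg 147 = lx / (P.b * P.w)) :
    RowEnv (P.ends lx ly) A B s := by
  have hk : (P.ends lx ly).k ≤ P.k := Nat.mul_le_mul_right _ hlx
  have hk2 : (P.ends lx ly).k * P.w ≤ P.k * P.w := Nat.mul_le_mul_right _ hk
  refine ⟨h.r144, h.r146, h147, h.r160, h.r161, h.r162, h.r163, h.r164,
    fun i hi => h.a143 i (hi.trans_le hk), fun a ha => h.a144 a (ha.trans_le hlx), h.l1,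
    hlx.trans h.l2, h.l3, ?_, hk.trans h.b2⟩
  have h1 := h.b1
  show JJ P * P.g + (P.ends lx ly).k * P.w ≤ s.reg 3
  omega

theorem wrwa_rows : (∀ k ∈ rowsHP.wr, k ∈ [170, 171, 172, 173]) ∧
    ∀ k ∈ rowsHP.wa, k ∈ [145, 146, 147] := by
  constructor <;> decide

theorem wrwa_ends : (∀ k ∈ endsHP.wr, k ∈ [147, 152, 170, 171, 172, 173]) ∧
    ∀ k ∈ endsHP.wa, k ∈ [145, 146, 147] := by
  constructor <;> decide

/-- **The value for one pair of ends.** -/
theorem endsHP_spec {s : State} (h : EndEnv P A B s) {lx ly : ℕ} (hg : 0 < P.g) (hb : 0 < P.b)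
    (hv : 0 < P.v) (h141 : s.reg 141 = lx) (h143 : s.reg 143 = ly)
    (hlx : lx / (P.b * P.w) ≤ P.K) (hly : ly < P.M * P.g) (hR : lx + ly ≤ s.reg 3) :
    Wp ρ endsHP (fun s' => s'.reg 152 = val P A B lx ly) s := by
  unfold endsHP
  refine Wp.seqF (fun s' => s'.reg 147 = lx / (P.b * P.w)) ?_ ?_
  · refine Wp.set (lx / (P.b * P.w)) ?_ ?_ (by simp)
    · simp [ediv, emul, Expr.eval, Op.eval, h141, h.r146, h.r162]
    · exact (Nat.div_le_self _ _).trans (by omega)
  intro s1 hf1 h147
  have hf1' : Frame s s1 [147] [] := hf1.mono (by simp [HP.wr, setK]) (by simp [HP.wa, setK])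
  have h1 : EndEnv P A B s1 := h.frame hf1' (by simp) (by simp)
  have hE : RowEnv (P.ends lx ly) A B s1 := h1.row hlx h147
  refine Wp.seqF _ (rowsHP_spec hE) ?_
  intro s2 hf2 h2
  have hf2' : Frame s1 s2 [170, 171, 172, 173] [145, 146, 147] :=
    hf2.mono wrwa_rows.1 wrwa_rows.2
  have e141 : s2.reg 141 = lx := by
    rw [hf2'.reg 141 (by decide), hf1'.reg 141 (by decide)]; exact h141
  have e143 : s2.reg 143 = ly := by
    rw [hf2'.reg 143 (by decide), hf1'.reg 143 (by decide)]; exact h143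
  have e144 : s2.reg 144 = P.g := by
    rw [hf2'.reg 144 (by decide)]; exact h1.r144
  have e146 : s2.reg 146 = P.b := by
    rw [hf2'.reg 146 (by decide)]; exact h1.r146
  have e162 : s2.reg 162 = P.w := by
    rw [hf2'.reg 162 (by decide)]; exact h1.r162
  have e147 : s2.reg 147 = lx / (P.b * P.w) := by
    rw [hf2'.reg 147 (by decide)]; exact h147
  have e3 : s2.reg 3 = s.reg 3 := by
    rw [hf2'.reg 3 (by decide), hf1'.reg 3 (by decide)]
  set m := ly / P.g with hm
  have m1 : m * P.g ≤ ly := Nat.div_mul_le_self _ _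
  have hmM : m < P.M := by
    rw [hm, Nat.div_lt_iff_lt_mul hg]; exact hly
  have hbv : 0 < P.b * P.v := Nat.mul_pos hb hv
  have a1 : s2.arr 147 m = blk (P.ends lx ly) A B (P.ends lx ly).K m := h2 m (by
    show m ≤ P.M + P.b * P.v
    omega)
  have a2 : s2.arr 147 (m + 1) = blk (P.ends lx ly) A B (P.ends lx ly).K (m + 1) := h2 (m + 1) (by
    show m + 1 ≤ P.M + P.b * P.v
    omega)
  have hkw : (P.ends lx ly).k * P.w = lx / (P.b * P.w) * P.b * P.w := rfl
  have hkw2 : lx / (P.b * P.w) * P.b * P.w ≤ lx := by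
    have := Nat.div_mul_le_self lx (P.b * P.w)
    calc lx / (P.b * P.w) * P.b * P.w = lx / (P.b * P.w) * (P.b * P.w) := by ring
      _ ≤ lx := this
  have hval : val P A B lx ly = min (blk (P.ends lx ly) A B (P.ends lx ly).K m + (ly - m * P.g))
      (blk (P.ends lx ly) A B (P.ends lx ly).K (m + 1) + ((m + 1) * P.g - ly)) +
      (lx - lx / (P.b * P.w) * P.b * P.w) := rfl
  refine Wp.set (val P A B lx ly) ?_ ?_ (by simp)
  · rw [hval]
    simp only [eadd_eval, emin_eval, esub_eval, emul_eval, reg_eval, lit_eval,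
      e141, e143, e144, e146, e162, e147, ediv_eval, ← hm]
    simp only [Expr.eval, eadd_eval, ediv_eval, reg_eval, lit_eval, e143, e144, ← hm, a1, a2,
      Op.eval, eadd, ediv]
  · rw [e3, hval]
    have b1 := blk_bd (P := P.ends lx ly) (A := A) (B := B) (P.ends lx ly).K m (by
      show m ≤ P.M + P.b * P.v
      omega)
    have b2 : (P.ends lx ly).K * (P.ends lx ly).b * (P.ends lx ly).w =
      lx / (P.b * P.w) * P.b * P.w := rfl
    have b3 : m * (P.ends lx ly).g = m * P.g := rfl
    rw [b2, b3] at b1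
    omega

theorem ends_ok' : endsHP.ok 1 60 = true := by decide

theorem ends_bigs : endsHP.bigs = [] := rfl

end Vale.Agent.P315.H142
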