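import Vale.Agent.P315.H142.Val
import Vale.Agent.P315.H817.Fn
import Vale.Agent.P315.DP

/-! The rows of the base algorithm on the clamped language: from the window table (array `143`)
and the block table (array `144`) to the last row (array `147`). -/

set_option autoImplicit false

namespace Vale.Agent.P315.H142

open Vale.Agent.P315 Vale.Agent.P315.H36 Vale.Agent.P315.H817

/-- Forward sweep in array `146`: `g` in register `144`, `J` in register `163`. -/
def fwdHP : HP := .loop 172 (.reg 163)
  (.put 146 (eadd (.reg 172) (.lit 1)) (emin (.get 146 (eadd (.reg 172) (.lit 1)))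
    (eadd (.get 146 (.reg 172)) (.reg 144))))

/-- Backward sweep from array `146` to array `D`. -/
def bwdHP (D : ℕ) : HP := .seq (.put D (.reg 163) (.get 146 (.reg 163)))
  (.loop 172 (.reg 163)
    (.put D (esub (.reg 163) (eadd (.reg 172) (.lit 1)))
      (emin (.get 146 (esub (.reg 163) (eadd (.reg 172) (.lit 1))))
        (eadd (.get D (esub (.reg 163) (.reg 172))) (.reg 144)))))

/-- Candidates of a window row from array `145` to array `146`; `i` in register `173`. -/
def candWin : HP := .seq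
  (.loop 172 (eadd (.reg 163) (.lit 1))
    (.put 146 (.reg 172) (eadd (.get 145 (.reg 172)) (.reg 162))))
  (.loop 172 (.reg 161)
    (.put 146 (eadd (.reg 172) (.reg 160))
      (emin (.get 146 (eadd (.reg 172) (.reg 160)))
        (eadd (.get 145 (.reg 172)) (.get 143 (eadd (emul (.reg 173) (.reg 161)) (.reg 172)))))))

/-- Candidates of a block row from arrays `145`, `147` to array `146`; `a` in register `170`. -/
def candBlk : HP := .seq
  (.loop 172 (eadd (.reg 163) (.lit 1))
    (.put 146 (.reg 172) (.get 145 (.reg 172))))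
  (.loop 172 (.reg 161)
    (.put 146 (eadd (.reg 172) (.reg 164))
      (emin (.get 146 (eadd (.reg 172) (.reg 164)))
        (eadd (.get 147 (.reg 172)) (.get 144 (eadd (emul (.reg 170) (.reg 161)) (.reg 172)))))))

/-- One window row. -/
def winHP : HP := .seq (.set 173 (eadd (emul (.reg 170) (.reg 146)) (.reg 171)))
  (.seq candWin (.seq fwdHP (bwdHP 145)))

/-- One block. -/
def blkHP : HP := .seq
  (.loop 172 (eadd (.reg 163) (.lit 1)) (.put 145 (.reg 172) (.get 147 (.reg 172))))
  (.seq (.loop 171 (.reg 146) winHP) (.seq candBlk (.seq fwdHP (bwdHP 147))))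

/-- All rows. -/
def rowsHP : HP := .seq
  (.loop 172 (eadd (.reg 163) (.lit 1)) (.put 147 (.reg 172) (emul (.reg 172) (.reg 144))))
  (.loop 170 (.reg 147) blkHP)

variable {ρ : ℕ → ℕ}

theorem Wp_fwd {s : State} {g J : ℕ} {c : ℕ → ℕ} (hg : s.reg 144 = g) (hJ : s.reg 163 = J)
    (hL : J ≤ s.reg 4) (hc : ∀ j ≤ J, s.arr 146 j = c j) (hR : ∀ j ≤ J, c j ≤ s.reg 3) :
    Wp ρ fwdHP (fun s' => ∀ j ≤ J, s'.arr 146 j = fwd g c j) s := by
  unfold fwdHP
  refine Wp.loopF J (by simp [hJ]) hL
    (fun t s' => ∀ j ≤ J, s'.arr 146 j = if j ≤ t then fwd g c j else c j) ?_ ?_ ?_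
  · intro j hj
    by_cases h : j ≤ 0
    · obtain rfl : j = 0 := by omega
      simp [fwd, hc 0 (by omega)]
    · rw [if_neg h, hc j hj]
  · intro t ht s' hf hI
    have h3 : s'.reg 3 = s.reg 3 := hf.reg 3 (by decide)
    have hg' : s'.reg 144 = g := by rw [hf.reg 144 (by decide)]; exact hg
    have e1 : s'.arr 146 (t + 1) = c (t + 1) := by rw [hI _ (by omega), if_neg (by omega)]
    have e2 : s'.arr 146 t = fwd g c t := by rw [hI _ (by omega), if_pos le_rfl]
    refine Wp.put (t + 1) (fwd g c (t + 1)) ?_ ?_ ?_ ?_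
    · simp
    · simp [fwd, e1, e2, hg']
    · simp only [State.setReg_reg]
      rw [if_neg (by decide), h3]
      exact (min_le_left _ _).trans (hR _ (by omega))
    · intro j hj
      by_cases hjt : j = t + 1
      · subst hjt; simp
      · simp only [State.setArr_arr, State.setReg_arr, hjt, and_false, if_false]
        rw [hI j hj]
        by_cases h : j ≤ t
        · rw [if_pos h, if_pos (by omega)]
        · rw [if_neg h, if_neg (by omega)]
  · intro s' _ hI j hj
    rw [hI j hj, if_pos hj]

theorem Wp_bwd {s : State} {D g J : ℕ} {c : ℕ → ℕ} (hD : D ≠ 146) (hg : s.reg 144 = g)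
    (hJ : s.reg 163 = J) (hL : J ≤ s.reg 4) (hc : ∀ j ≤ J, s.arr 146 j = c j)
    (hR : ∀ j ≤ J, c j ≤ s.reg 3) :
    Wp ρ (bwdHP D) (fun s' => ∀ j ≤ J, s'.arr D j = bwd g c J (J - j)) s := by
  unfold bwdHP
  have hD' : (146 : ℕ) ≠ D := fun h => hD h.symm
  refine Wp.seqF (fun s' => s'.arr D J = c J) ?_ ?_
  · refine Wp.put J (c J) (by simp [hJ]) (by simp [hJ, hc J le_rfl]) (hR J le_rfl) ?_
    simp
  · intro s1 hf1 h1
    have a1 : ∀ j ≤ J, s1.arr 146 j = c j := by
      intro j hj
      rw [hf1.arr 146 (by simp [HP.wa, hD'])]; exact hc j hj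
    have g1 : s1.reg 144 = g := by rw [hf1.reg 144 (by simp [HP.wr])]; exact hg
    have J1 : s1.reg 163 = J := by rw [hf1.reg 163 (by simp [HP.wr])]; exact hJ
    have r3 : s1.reg 3 = s.reg 3 := hf1.reg 3 (by simp [HP.wr])
    have r4 : s1.reg 4 = s.reg 4 := hf1.reg 4 (by simp [HP.wr])
    refine Wp.loopF J (by simp [J1]) (by rw [r4]; exact hL)
      (fun t s' => ∀ u ≤ t, s'.arr D (J - u) = bwd g c J u) ?_ ?_ ?_
    · intro u hu
      obtain rfl : u = 0 := by omega
      simpa [bwd] using h1
    · intro t ht s' hf hI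
      have h3 : s'.reg 3 = s.reg 3 := by rw [hf.reg 3 (by simp [HP.wr]), r3]
      have hg' : s'.reg 144 = g := by rw [hf.reg 144 (by simp [HP.wr])]; exact g1
      have hJ' : s'.reg 163 = J := by rw [hf.reg 163 (by simp [HP.wr])]; exact J1
      have e1 : s'.arr 146 (J - (t + 1)) = c (J - (t + 1)) := by
        rw [hf.arr 146 (by simp [HP.wa, hD'])]; exact a1 _ (by omega)
      have e2 : s'.arr D (J - t) = bwd g c J t := hI t le_rfl
      refine Wp.put (J - (t + 1)) (bwd g c J (t + 1)) ?_ ?_ ?_ ?_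
      · simp [hJ']
      · simp [bwd, e1, e2, hg', hJ']
      · simp only [State.setReg_reg]
        rw [if_neg (by decide), h3]
        exact (min_le_left _ _).trans (hR _ (by omega))
      · intro u hu
        by_cases hut : u = t + 1
        · subst hut; simp
        · have hne : J - u ≠ J - (t + 1) := by omega
          simp only [State.setArr_arr, State.setReg_arr, hne, and_false, if_false]
          exact hI u (by omega)
    · intro s' _ hI j hj
      have := hI (J - j) (by omega)
      rwa [Nat.sub_sub_self hj] at this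

/-- The two sweeps. -/
theorem Wp_lip {s : State} {D g J : ℕ} {c : ℕ → ℕ} (hD : D ≠ 146) (hg : s.reg 144 = g)
    (hJ : s.reg 163 = J) (hL : J ≤ s.reg 4) (hc : ∀ j ≤ J, s.arr 146 j = c j)
    (hR : ∀ j ≤ J, c j ≤ s.reg 3) :
    Wp ρ (.seq fwdHP (bwdHP D)) (fun s' => ∀ j ≤ J, s'.arr D j = lipc g c J j) s := by
  refine Wp.seqF _ (Wp_fwd hg hJ hL hc hR) ?_
  intro s1 hf h1
  have r3 : s1.reg 3 = s.reg 3 := hf.reg 3 (by decide)
  have r4 : s1.reg 4 = s.reg 4 := hf.reg 4 (by decide)
  refine Wp_bwd hD (by rw [hf.reg 144 (by decide)]; exact hg)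
    (by rw [hf.reg 163 (by decide)]; exact hJ) (by rw [r4]; exact hL) h1 ?_
  intro j hj
  rw [r3]
  exact (fwd_le g c j).trans (hR j hj)

/-- Candidates: copy with an added constant, then minimum with shifted entries. -/
theorem Wp_shift {s : State} {S V M J : ℕ} (c W Z : ℕ → ℕ) {e : Expr} {rv : ℕ}
    (hrv : rv ≠ 172) (hM : s.reg 161 = M) (hV : s.reg rv = V) (hVJ : M + V ≤ J + 1)
    (hL : M ≤ s.reg 4) (hc : ∀ j ≤ J, s.arr 146 j = c j) (hS : S ≠ 146)
    (hW : ∀ j < M, s.arr S j = W j) (hR : ∀ j ≤ J, c j ≤ s.reg 3)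
    (he : ∀ t < M, ∀ s', Frame s s' [172] [146] → e.eval (s'.setReg 172 t) = Z t) :
    Wp ρ (.loop 172 (.reg 161) (.put 146 (eadd (.reg 172) (.reg rv))
      (emin (.get 146 (eadd (.reg 172) (.reg rv))) (eadd (.get S (.reg 172)) e))))
      (fun s' => ∀ j ≤ J, s'.arr 146 j = if V ≤ j ∧ j < M + V then
        min (c j) (W (j - V) + Z (j - V)) else c j) s := by
  refine Wp.loopF M (by simp [hM]) hL
    (fun t s' => ∀ j ≤ J, s'.arr 146 j = if V ≤ j ∧ j < t + V then
        min (c j) (W (j - V) + Z (j - V)) else c j) ?_ ?_ ?_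
  · intro j hj
    rw [if_neg (by omega)]; exact hc j hj
  · intro t ht s' hf hI
    have hf' : Frame s s' [172] [146] := hf.mono (by simp [HP.wr]) (by simp [HP.wa])
    have h3 : s'.reg 3 = s.reg 3 := hf'.reg 3 (by decide)
    have hV' : s'.reg rv = V := by rw [hf'.reg rv (by simpa using hrv)]; exact hV
    have e1 : s'.arr 146 (t + V) = c (t + V) := by
      rw [hI _ (by omega), if_neg (by omega)]
    have e2 : s'.arr S t = W t := by
      rw [hf'.arr S (by simpa using hS)]; exact hW t ht
    have e3 := he t ht s' hf'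
    refine Wp.put (t + V) (min (c (t + V)) (W t + Z t)) ?_ ?_ ?_ ?_
    · simp [hrv, hV']
    · simp [hrv, hV', e1, e2, e3]
    · simp only [State.setReg_reg]
      rw [if_neg (by decide), h3]
      exact (min_le_left _ _).trans (hR _ (by omega))
    · intro j hj
      by_cases hjt : j = t + V
      · subst hjt; simp
      · simp only [State.setArr_arr, State.setReg_arr, hjt, and_false, if_false]
        rw [hI j hj]
        by_cases h : V ≤ j ∧ j < t + V
        · rw [if_pos h, if_pos (by omega)]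
        · rw [if_neg h, if_neg (by omega)]
  · intro s' _ hI j hj
    exact hI j hj

/-- What the rows need from the state. -/
structure RowEnv (P : Pm) (A B : ℕ → ℕ → ℕ) (s : State) : Prop where
  r144 : s.reg 144 = P.g
  r146 : s.reg 146 = P.b
  r147 : s.reg 147 = P.K
  r160 : s.reg 160 = P.v
  r161 : s.reg 161 = P.M
  r162 : s.reg 162 = P.w
  r163 : s.reg 163 = JJ P
  r164 : s.reg 164 = P.b * P.v
  a143 : ∀ i < P.k, ∀ j < P.M, s.arr 143 (i * P.M + j) = A i j
  a144 : ∀ a < P.K, ∀ j < P.M, s.arr 144 (a * P.M + j) = B a j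
  l1 : JJ P + 1 ≤ s.reg 4
  l2 : P.K ≤ s.reg 4
  l3 : P.b ≤ s.reg 4
  b1 : JJ P * P.g + P.k * P.w ≤ s.reg 3
  b2 : P.k ≤ s.reg 3

theorem RowEnv.frame {P : Pm} {A B : ℕ → ℕ → ℕ} {s s' : State} {wr wa : List ℕ}
    (h : RowEnv P A B s) (hf : Frame s s' wr wa) (h1 : ∀ k ∈ wr, k ∈ [170, 171, 172, 173])
    (h2 : ∀ k ∈ wa, k ∈ [145, 146, 147]) : RowEnv P A B s' := by
  have hf := hf.mono h1 h2
  exact ⟨by rw [hf.reg 144 (by decide)]; exact h.r144, by rw [hf.reg 146 (by decide)]; exact h.r146,
    by rw [hf.reg 147 (by decide)]; exact h.r147, by rw [hf.reg 160 (by decide)]; exact h.r160,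
    by rw [hf.reg 161 (by decide)]; exact h.r161, by rw [hf.reg 162 (by decide)]; exact h.r162,
    by rw [hf.reg 163 (by decide)]; exact h.r163, by rw [hf.reg 164 (by decide)]; exact h.r164,
    by rw [hf.arr 143 (by decide)]; exact h.a143, by rw [hf.arr 144 (by decide)]; exact h.a144,
    by rw [hf.reg 4 (by decide)]; exact h.l1, by rw [hf.reg 4 (by decide)]; exact h.l2,
    by rw [hf.reg 4 (by decide)]; exact h.l3, by rw [hf.reg 3 (by decide)]; exact h.b1,
    by rw [hf.reg 3 (by decide)]; exact h.b2⟩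

theorem RowEnv.setReg {P : Pm} {A B : ℕ → ℕ → ℕ} {s : State} (h : RowEnv P A B s) {i v : ℕ}
    (hi : i ∈ [170, 171, 172, 173]) : RowEnv P A B (s.setReg i v) :=
  h.frame (frame_setReg s i v) (by simpa using hi) (by simp)

section
variable {P : Pm} {A B : ℕ → ℕ → ℕ}

theorem row_le {i j : ℕ} (hi : i ≤ P.k) (hj : j ≤ JJ P) :
    j * P.g + i * P.w ≤ JJ P * P.g + P.k * P.w :=
  Nat.add_le_add (Nat.mul_le_mul_right _ hj) (Nat.mul_le_mul_right _ hi)

theorem step1_le (i : ℕ) (row : ℕ → ℕ) (j : ℕ) : step1 P A i row j ≤ row j + P.w := by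
  unfold step1
  split_ifs
  · exact min_le_left _ _
  · exact le_rfl

theorem stepB_le (a : ℕ) (u row : ℕ → ℕ) (j : ℕ) : stepB P B a u row j ≤ u j := by
  unfold stepB
  split_ifs
  · exact min_le_left _ _
  · exact le_rfl

theorem candWin_spec {s : State} (hE : RowEnv P A B s) {i : ℕ} {row : ℕ → ℕ}
    (hi : i < P.k) (h173 : s.reg 173 = i) (hrow : ∀ j ≤ JJ P, s.arr 145 j = row j)
    (hb : ∀ j ≤ JJ P, row j ≤ j * P.g + i * P.w) :
    Wp ρ candWin (fun s' => ∀ j ≤ JJ P, s'.arr 146 j = step1 P A i row j) s := by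
  unfold candWin
  have hi1 : (i + 1) * P.w = i * P.w + P.w := by ring
  have hR : ∀ j ≤ JJ P, row j + P.w ≤ s.reg 3 := by
    intro j hj
    have h1 := hb j hj
    have h2 := row_le (P := P) (i := i + 1) hi hj
    have h3 := hE.b1
    omega
  refine Wp.seqF (fun s' => ∀ j ≤ JJ P, s'.arr 146 j = row j + P.w) ?_ ?_
  · refine Wp.loopF (JJ P + 1) (by simp [hE.r163]) hE.l1
      (fun t s' => ∀ j < t, s'.arr 146 j = row j + P.w) (fun j hj => absurd hj (by omega)) ?_
      (fun s' _ h j hj => h j (by omega))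
    intro t ht s' hf hI
    have hf' : Frame s s' [172] [146] := hf.mono (by simp [HP.wr]) (by simp [HP.wa])
    refine Wp.put t (row t + P.w) (by simp) ?_ ?_ ?_
    · have e1 : s'.arr 145 t = row t := by
        rw [hf'.arr 145 (by decide)]; exact hrow t (by omega)
      have e2 : s'.reg 162 = P.w := by rw [hf'.reg 162 (by decide)]; exact hE.r162
      simp [e1, e2, Expr.eval]
    · simp only [State.setReg_reg]
      rw [if_neg (by decide), hf'.reg 3 (by decide)]
      exact hR t (by omega)
    · intro j hj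
      by_cases hjt : j = t
      · subst hjt; simp
      · simp only [State.setArr_arr, State.setReg_arr, hjt, and_false, if_false]
        exact hI j (by omega)
  · intro s1 hf1 h1
    have hf1' : Frame s s1 [172] [146] := hf1.mono (by simp [HP.wr]) (by simp [HP.wa])
    have hE1 : RowEnv P A B s1 := hE.frame hf1' (by simp) (by simp)
    have h173' : s1.reg 173 = i := by rw [hf1'.reg 173 (by decide)]; exact h173
    have hrow1 : ∀ j ≤ JJ P, s1.arr 145 j = row j := by
      intro j hj; rw [hf1'.arr 145 (by decide)]; exact hrow j hj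
    have hMJ : P.M + P.v ≤ JJ P + 1 ∨ P.b = 0 := by
      rcases Nat.eq_zero_or_pos P.b with h | h
      · exact Or.inr h
      · left
        have := Nat.le_mul_of_pos_left P.v h
        unfold JJ; omega
    have hbpos : 0 < P.b := by
      rcases Nat.eq_zero_or_pos P.b with h | h
      · exfalso
        have : P.k = 0 := by unfold Pm.k; rw [h]; simp
        omega
      · exact h
    have hMJ : P.M + P.v ≤ JJ P + 1 := by
      rcases hMJ with h | h
      · exact h
      · omega
    refine (Wp_shift (fun j => row j + P.w) row (fun t => A i t) (S := 145) (M := P.M) (V := P.v)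
      (J := JJ P) (by decide) hE1.r161 hE1.r160 hMJ (by have := hE1.l1; unfold JJ at this; omega)
      h1 (by decide) (fun j hj => hrow1 j (by unfold JJ; omega)) ?_ ?_).mono ?_
    · intro j hj
      rw [hf1'.reg 3 (by decide)]; exact hR j hj
    · intro t ht s' hf
      have e1 : s'.reg 173 = i := by rw [hf.reg 173 (by decide)]; exact h173'
      have e2 : s'.reg 161 = P.M := by rw [hf.reg 161 (by decide)]; exact hE1.r161
      have e3 : s'.arr 143 (i * P.M + t) = A i t := by
        rw [hf.arr 143 (by decide)]; exact hE1.a143 i hi t ht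
      simp [e1, e2, e3, Expr.eval]
    · intro s' h j hj
      rw [h j hj]
      rfl

theorem winHP_spec {s : State} (hE : RowEnv P A B s) {a r : ℕ} {row : ℕ → ℕ}
    (ha : a < P.K) (hr : r < P.b) (h170 : s.reg 170 = a) (h171 : s.reg 171 = r)
    (hrow : ∀ j ≤ JJ P, s.arr 145 j = row j)
    (hb : ∀ j ≤ JJ P, row j ≤ j * P.g + (a * P.b + r) * P.w) :
    Wp ρ winHP (fun s' => ∀ j ≤ JJ P, s'.arr 145 j =
      lipc P.g (step1 P A (a * P.b + r) row) (JJ P) j) s := by
  unfold winHP
  have hi : a * P.b + r < P.k := by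
    have : (a + 1) * P.b ≤ P.K * P.b := Nat.mul_le_mul_right _ ha
    have e : (a + 1) * P.b = a * P.b + P.b := by ring
    unfold Pm.k; omega
  refine Wp.seqF (fun s' => s'.reg 173 = a * P.b + r) ?_ ?_
  · refine Wp.set (a * P.b + r) ?_ ?_ (by simp)
    · simp [h170, h171, hE.r146, Expr.eval]
    · have := hE.b2; omega
  intro s1 hf1 h173
  have hf1' : Frame s s1 [173] [] := hf1.mono (by simp [HP.wr]) (by simp [HP.wa])
  have hE1 : RowEnv P A B s1 := hE.frame hf1' (by simp) (by simp)
  refine Wp.seqF _ (candWin_spec hE1 hi h173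
    (fun j hj => by rw [hf1'.arr 145 (by decide)]; exact hrow j hj) hb) ?_
  intro s2 hf2 h2
  have hE2 : RowEnv P A B s2 := hE1.frame hf2 (by simp [HP.wr, candWin]) (by simp [HP.wa, candWin])
  refine Wp_lip (by decide) hE2.r144 hE2.r163 (by have := hE2.l1; omega) h2 ?_
  intro j hj
  have h3 := step1_le (P := P) (A := A) (a * P.b + r) row j
  have h4 := hb j hj
  have h5 := row_le (P := P) (i := a * P.b + r + 1) hi hj
  have h6 : (a * P.b + r + 1) * P.w = (a * P.b + r) * P.w + P.w := by ring
  have h7 := hE2.b1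
  omega

theorem winr_bd {a : ℕ} {row : ℕ → ℕ} (hb : ∀ j ≤ JJ P, row j ≤ j * P.g + a * P.b * P.w) (r : ℕ) :
    ∀ j ≤ JJ P, winr P A a row r j ≤ j * P.g + (a * P.b + r) * P.w := by
  induction r with
  | zero => exact hb
  | succ r ih =>
    intro j hj
    have h1 := lipc_le P.g (step1 P A (a * P.b + r) (winr P A a row r)) hj
    have h2 := step1_le (P := P) (A := A) (a * P.b + r) (winr P A a row r) j
    have h3 := ih j hj
    have h4 : (a * P.b + (r + 1)) * P.w = (a * P.b + r) * P.w + P.w := by ring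
    have h5 : winr P A a row (r + 1) j =
      lipc P.g (step1 P A (a * P.b + r) (winr P A a row r)) (JJ P) j := rfl
    omega

theorem blk_bd (a : ℕ) : ∀ j ≤ JJ P, blk P A B a j ≤ j * P.g + a * P.b * P.w := by
  induction a with
  | zero => intro j _; simp [blk]
  | succ a ih =>
    intro j hj
    have h1 := lipc_le P.g (stepB P B a (winr P A a (blk P A B a) P.b) (blk P A B a)) hj
    have h2 := stepB_le (P := P) (B := B) a (winr P A a (blk P A B a) P.b) (blk P A B a) j
    have h3 := winr_bd (A := A) ih P.b j hj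
    have h4 : (a + 1) * P.b = a * P.b + P.b := by ring
    have h5 : blk P A B (a + 1) j =
      lipc P.g (stepB P B a (winr P A a (blk P A B a) P.b) (blk P A B a)) (JJ P) j := rfl
    rw [h4]
    omega

theorem candBlk_spec {s : State} (hE : RowEnv P A B s) {a : ℕ} {u row : ℕ → ℕ}
    (ha : a < P.K) (h170 : s.reg 170 = a) (hu : ∀ j ≤ JJ P, s.arr 145 j = u j)
    (hrow : ∀ j ≤ JJ P, s.arr 147 j = row j) (hb : ∀ j ≤ JJ P, u j ≤ s.reg 3) :
    Wp ρ candBlk (fun s' => ∀ j ≤ JJ P, s'.arr 146 j = stepB P B a u row j) s := by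
  unfold candBlk
  refine Wp.seqF (fun s' => ∀ j ≤ JJ P, s'.arr 146 j = u j) ?_ ?_
  · refine Wp.loopF (JJ P + 1) (by simp [hE.r163]) hE.l1
      (fun t s' => ∀ j < t, s'.arr 146 j = u j) (fun j hj => absurd hj (by omega)) ?_
      (fun s' _ h j hj => h j (by omega))
    intro t ht s' hf hI
    have hf' : Frame s s' [172] [146] := hf.mono (by simp [HP.wr]) (by simp [HP.wa])
    have e1 : s'.arr 145 t = u t := by
      rw [hf'.arr 145 (by decide)]; exact hu t (by omega)
    refine Wp.put t (u t) (by simp) (by simp [e1, Expr.eval]) ?_ ?_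
    · simp only [State.setReg_reg]
      rw [if_neg (by decide), hf'.reg 3 (by decide)]
      exact hb t (by omega)
    · intro j hj
      by_cases hjt : j = t
      · subst hjt; simp
      · simp only [State.setArr_arr, State.setReg_arr, hjt, and_false, if_false]
        exact hI j (by omega)
  · intro s1 hf1 h1
    have hf1' : Frame s s1 [172] [146] := hf1.mono (by simp [HP.wr]) (by simp [HP.wa])
    have hE1 : RowEnv P A B s1 := hE.frame hf1' (by simp) (by simp)
    have h170' : s1.reg 170 = a := by rw [hf1'.reg 170 (by decide)]; exact h170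
    have hrow1 : ∀ j ≤ JJ P, s1.arr 147 j = row j := by
      intro j hj; rw [hf1'.arr 147 (by decide)]; exact hrow j hj
    refine (Wp_shift u row (fun t => B a t) (S := 147) (M := P.M) (V := P.b * P.v)
      (J := JJ P) (by decide) hE1.r161 hE1.r164 (by unfold JJ; omega)
      (by have := hE1.l1; unfold JJ at this; omega)
      h1 (by decide) (fun j hj => hrow1 j (by unfold JJ; omega)) ?_ ?_).mono ?_
    · intro j hj
      rw [hf1'.reg 3 (by decide)]; exact hb j hj
    · intro t ht s' hf
      have e1 : s'.reg 170 = a := by rw [hf.reg 170 (by decide)]; exact h170'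
      have e2 : s'.reg 161 = P.M := by rw [hf.reg 161 (by decide)]; exact hE1.r161
      have e3 : s'.arr 144 (a * P.M + t) = B a t := by
        rw [hf.arr 144 (by decide)]; exact hE1.a144 a ha t ht
      simp [e1, e2, e3, Expr.eval]
    · intro s' h j hj
      rw [h j hj]
      rfl

theorem blkHP_spec {s : State} (hE : RowEnv P A B s) {a : ℕ} (ha : a < P.K)
    (h170 : s.reg 170 = a) (hrow : ∀ j ≤ JJ P, s.arr 147 j = blk P A B a j) :
    Wp ρ blkHP (fun s' => ∀ j ≤ JJ P, s'.arr 147 j = blk P A B (a + 1) j) s := by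
  unfold blkHP
  have hbd := blk_bd (P := P) (A := A) (B := B) a
  have hk1 : a * P.b ≤ P.k := Nat.mul_le_mul_right _ (by omega)
  refine Wp.seqF (fun s' => ∀ j ≤ JJ P, s'.arr 145 j = blk P A B a j) ?_ ?_
  · refine Wp.loopF (JJ P + 1) (by simp [hE.r163]) hE.l1
      (fun t s' => ∀ j < t, s'.arr 145 j = blk P A B a j) (fun j hj => absurd hj (by omega)) ?_
      (fun s' _ h j hj => h j (by omega))
    intro t ht s' hf hI
    have hf' : Frame s s' [172] [145] := hf.mono (by simp [HP.wr]) (by simp [HP.wa])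
    have e1 : s'.arr 147 t = blk P A B a t := by
      rw [hf'.arr 147 (by decide)]; exact hrow t (by omega)
    refine Wp.put t (blk P A B a t) (by simp) (by simp [e1, Expr.eval]) ?_ ?_
    · simp only [State.setReg_reg]
      rw [if_neg (by decide), hf'.reg 3 (by decide)]
      have h1 := hbd t (by omega)
      have h2 := row_le (P := P) hk1 (j := t) (by omega)
      have h3 := hE.b1
      omega
    · intro j hj
      by_cases hjt : j = t
      · subst hjt; simp
      · simp only [State.setArr_arr, State.setReg_arr, hjt, and_false, if_false]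
        exact hI j (by omega)
  intro s1 hf1 h1
  have hf1' : Frame s s1 [172] [145] := hf1.mono (by simp [HP.wr]) (by simp [HP.wa])
  have hE1 : RowEnv P A B s1 := hE.frame hf1' (by simp) (by simp)
  have h170' : s1.reg 170 = a := by rw [hf1'.reg 170 (by decide)]; exact h170
  have hrow1 : ∀ j ≤ JJ P, s1.arr 147 j = blk P A B a j := by
    intro j hj; rw [hf1'.arr 147 (by decide)]; exact hrow j hj
  refine Wp.seqF (fun s' => ∀ j ≤ JJ P, s'.arr 145 j = winr P A a (blk P A B a) P.b j) ?_ ?_
  · refine Wp.loopF P.b (by simp [hE1.r146]) hE1.l3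
      (fun t s' => ∀ j ≤ JJ P, s'.arr 145 j = winr P A a (blk P A B a) t j) h1 ?_
      (fun s' _ h => h)
    intro t ht s' hf hI
    have hf' : Frame s1 s' [171, 172, 173] [145, 146] :=
      hf.mono (by simp [HP.wr, winHP, candWin, fwdHP, bwdHP])
        (by simp [HP.wa, winHP, candWin, fwdHP, bwdHP])
    have hE' : RowEnv P A B s' := hE1.frame hf' (by simp) (by simp)
    refine winHP_spec (hE'.setReg (i := 171) (v := t) (by simp)) ha ht ?_ (by simp) ?_ ?_
    · simp only [State.setReg_reg]
      rw [if_neg (by decide), hf'.reg 170 (by decide)]; exact h170'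
    · intro j hj; exact hI j hj
    · exact winr_bd hbd t
  intro s2 hf2 h2
  have hf2' : Frame s1 s2 [171, 172, 173] [145, 146] :=
    hf2.mono (by simp [HP.wr, winHP, candWin, fwdHP, bwdHP])
      (by simp [HP.wa, winHP, candWin, fwdHP, bwdHP])
  have hE2 : RowEnv P A B s2 := hE1.frame hf2' (by simp) (by simp)
  have h170'' : s2.reg 170 = a := by rw [hf2'.reg 170 (by decide)]; exact h170'
  have hrow2 : ∀ j ≤ JJ P, s2.arr 147 j = blk P A B a j := by
    intro j hj; rw [hf2'.arr 147 (by decide)]; exact hrow1 j hj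
  have hbd2 : ∀ j ≤ JJ P, winr P A a (blk P A B a) P.b j ≤ s2.reg 3 := by
    intro j hj
    have g1 := winr_bd (A := A) hbd P.b j hj
    have g2 : a * P.b + P.b = (a + 1) * P.b := by ring
    have g3 : (a + 1) * P.b ≤ P.k := Nat.mul_le_mul_right _ ha
    have g4 := row_le (P := P) g3 hj
    have g5 := hE2.b1
    rw [g2] at g1
    omega
  refine Wp.seqF _ (candBlk_spec hE2 ha h170'' h2 hrow2 hbd2) ?_
  intro s3 hf3 h3
  have hf3' : Frame s2 s3 [172] [146] :=
    hf3.mono (by simp [HP.wr, candBlk]) (by simp [HP.wa, candBlk])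
  have hE3 : RowEnv P A B s3 := hE2.frame hf3' (by simp) (by simp)
  refine Wp_lip (by decide) hE3.r144 hE3.r163 (by have := hE3.l1; omega) h3 ?_
  intro j hj
  rw [hf3'.reg 3 (by decide)]
  exact (stepB_le _ _ _ _).trans (hbd2 j hj)

/-- **The rows program computes the last row.** -/
theorem rowsHP_spec {s : State} (hE : RowEnv P A B s) :
    Wp ρ rowsHP (fun s' => ∀ j ≤ JJ P, s'.arr 147 j = blk P A B P.K j) s := by
  unfold rowsHP
  refine Wp.seqF (fun s' => ∀ j ≤ JJ P, s'.arr 147 j = blk P A B 0 j) ?_ ?_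
  · refine Wp.loopF (JJ P + 1) (by simp [hE.r163]) hE.l1
      (fun t s' => ∀ j < t, s'.arr 147 j = blk P A B 0 j) (fun j hj => absurd hj (by omega)) ?_
      (fun s' _ h j hj => h j (by omega))
    intro t ht s' hf hI
    have hf' : Frame s s' [172] [147] := hf.mono (by simp [HP.wr]) (by simp [HP.wa])
    have e1 : s'.reg 144 = P.g := by rw [hf'.reg 144 (by decide)]; exact hE.r144
    refine Wp.put t (blk P A B 0 t) (by simp) (by simp [e1, Expr.eval, blk]) ?_ ?_
    · simp only [State.setReg_reg]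
      rw [if_neg (by decide), hf'.reg 3 (by decide)]
      have h2 : t * P.g ≤ JJ P * P.g := Nat.mul_le_mul_right _ (by omega)
      have h3 := hE.b1
      have h4 : blk P A B 0 t = t * P.g := rfl
      omega
    · intro j hj
      by_cases hjt : j = t
      · subst hjt; simp
      · simp only [State.setArr_arr, State.setReg_arr, hjt, and_false, if_false]
        exact hI j (by omega)
  intro s1 hf1 h1
  have hf1' : Frame s s1 [172] [147] := hf1.mono (by simp [HP.wr]) (by simp [HP.wa])
  have hE1 : RowEnv P A B s1 := hE.frame hf1' (by simp) (by simp)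
  refine Wp.loopF P.K (by simp [hE1.r147]) hE1.l2
    (fun t s' => ∀ j ≤ JJ P, s'.arr 147 j = blk P A B t j) h1 ?_ (fun s' _ h => h)
  intro t ht s' hf hI
  have hE' : RowEnv P A B s' := hE1.frame hf
    (by simp [HP.wr, blkHP, winHP, candWin, candBlk, fwdHP, bwdHP])
    (by simp [HP.wa, blkHP, winHP, candWin, candBlk, fwdHP, bwdHP])
  exact blkHP_spec (hE'.setReg (i := 170) (v := t) (by simp)) ht (by simp) hI

end

end Vale.Agent.P315.H142
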