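import Vale.Agent.P315.Seg

/-! The base algorithm: a constant factor approximation of the edit distance from few exact edit
distances of windows.  Deterministic part: hubs certify the windows that are close to many
positions, exact block costs along the diagonals of sampled windows do the rest. -/

set_option autoImplicit false

namespace Vale.Agent.P315.Start

open Vale.Agent.P315

theorem lev_comm (x y : List ℕ) : lev x y = lev y x :=
  le_antisymm (script_lev y x).symm.lev_le (script_lev x y).symm.lev_le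

/-- Moving the two ends of a window. -/
theorem two_shift (X Y : ℕ → ℕ) (p l : ℕ) {q1 q2 q1' q2' : ℕ} (h : q1 ≤ q2) (h' : q1' ≤ q2') :
    dist X Y p l q1 (q2 - q1) ≤ dist X Y p l q1' (q2' - q1') +
      ((q1 - q1') + (q1' - q1)) + ((q2 - q2') + (q2' - q2)) := by
  have g1 := (dist_grow X Y p l (a := min q1 q1') (b := max q2 q2') (by omega) h (by omega)).1
  have g2 := (dist_grow X Y p l (a := min q1 q1') (b := max q2 q2') (by omega) h' (by omega)).2
  omega

/-- Geometry: grid step `g`, window length `q1 * g`, `b` windows per block, `K` windows,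
`G` grid steps in the second string. -/
structure Geo where
  /-- grid step -/
  g : ℕ
  /-- window length in grid steps -/
  q1 : ℕ
  /-- windows per block -/
  b : ℕ
  /-- number of windows -/
  K : ℕ
  /-- number of grid steps in the second string -/
  G : ℕ

namespace Geo

variable (P : Geo)

/-- Window length. -/
def w : ℕ := P.q1 * P.g

/-- Grid index of the end of the window of `m` window lengths that starts at `j`. -/
def nx (m j : ℕ) : ℕ := min (j + m * P.q1) P.G

/-- Exact cost of `m` windows from window `a` against the window of `m` window lengths at `j`. -/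
def DB (X Y : ℕ → ℕ) (m a j : ℕ) : ℕ :=
  dist X Y (a * P.w) (m * P.w) (j * P.g) (P.nx m j * P.g - j * P.g)

/-- Distance of two windows (one window length) of the second string. -/
def HY (Y : ℕ → ℕ) (h j : ℕ) : ℕ :=
  dist Y Y (h * P.g) (P.nx 1 h * P.g - h * P.g) (j * P.g) (P.nx 1 j * P.g - j * P.g)

/-- Start (grid index) of the block window on the diagonal of `(k, j)`, the block starts at
window `a`. -/
def p0 (a k j : ℕ) : ℕ := min (j - (k - a) * P.q1) P.G

theorem nx_le (m j : ℕ) : P.nx m j ≤ P.G := min_le_right _ _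

theorem p0_le (a k j : ℕ) : P.p0 a k j ≤ P.G := min_le_right _ _

theorem nx_mul (m j : ℕ) : P.nx m j * P.g = min (j * P.g + m * P.w) (P.G * P.g) := by
  unfold nx w
  rw [← Nat.mul_min_mul_right, Nat.add_mul, Nat.mul_assoc]

theorem p0_mul (a k j : ℕ) : P.p0 a k j * P.g = min (j * P.g - (k - a) * P.w) (P.G * P.g) := by
  unfold p0 w
  rw [← Nat.mul_min_mul_right, Nat.sub_mul, Nat.mul_assoc]

theorem le_nx_mul (m : ℕ) {j : ℕ} (hj : j ≤ P.G) : j * P.g ≤ P.nx m j * P.g := by
  rw [P.nx_mul]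
  have := Nat.mul_le_mul_right P.g hj
  omega

/-- Soundness of the hub certificate. -/
theorem hub_ge (X Y : ℕ → ℕ) (k h j : ℕ) :
    P.DB X Y 1 k j ≤ P.DB X Y 1 k h + P.HY Y h j := by
  unfold DB HY dist
  exact lev_triangle _ _ _

/-- Quality of the hub certificate. -/
theorem hub_le (X Y : ℕ → ℕ) (k h j : ℕ) :
    P.HY Y h j ≤ P.DB X Y 1 k h + P.DB X Y 1 k j := by
  unfold DB HY dist
  refine (lev_triangle _ (seg X (k * P.w) (1 * P.w)) _).trans ?_
  rw [lev_comm (seg Y (h * P.g) _)]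

/-- The grid index of the alignment at window `k`. -/
def jk (f : ℕ → ℕ) (k : ℕ) : ℕ := f (k * P.w) / P.g

/-- The window `k` is dense: at least `d` grid positions are at least as close as that of the
alignment. -/
def Dense (X Y : ℕ → ℕ) (f : ℕ → ℕ) (d k : ℕ) : Prop :=
  d ≤ ((Finset.range (P.G + 1)).filter
    (fun j => P.DB X Y 1 k j ≤ P.DB X Y 1 k (P.jk f k))).card

/-- The moves of the table `V`, with hubs `H`, sampled windows `S`, lists `N`. -/
structure Moves (X Y : ℕ → ℕ) (H S : Set ℕ) (N : ℕ → Set ℕ) (V : ℕ → ℕ → ℕ) : Prop where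
  zero : ∀ j ≤ P.G, V 0 j ≤ j * P.g
  lip : ∀ k ≤ P.K, ∀ j ≤ P.G, ∀ j' ≤ P.G,
    V k j ≤ V k j' + ((j * P.g - j' * P.g) + (j' * P.g - j * P.g))
  del : ∀ k < P.K, ∀ j ≤ P.G, V (k + 1) j ≤ V k j + P.w
  hub : ∀ k < P.K, ∀ h ∈ H, ∀ j ≤ P.G,
    V (k + 1) (P.nx 1 j) ≤ V k j + (P.DB X Y 1 k h + P.HY Y h j)
  block : ∀ i, (i + 1) * P.b ≤ P.K → ∀ k ∈ S, i * P.b ≤ k → k < (i + 1) * P.b → ∀ j ∈ N k,
    V ((i + 1) * P.b) (P.nx P.b (P.p0 (i * P.b) k j)) ≤
      V (i * P.b) (P.p0 (i * P.b) k j) + P.DB X Y P.b (i * P.b) (P.p0 (i * P.b) k j)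

section
variable {P : Geo} {X Y : ℕ → ℕ} {f : ℕ → ℕ}

theorem jk_mul_le (f : ℕ → ℕ) (k : ℕ) : P.jk f k * P.g ≤ f (k * P.w) := Nat.div_mul_le_self _ _

theorem lt_jk_mul (hg : 0 < P.g) (f : ℕ → ℕ) (k : ℕ) : f (k * P.w) < P.jk f k * P.g + P.g := by
  have := Nat.lt_div_mul_add (a := f (k * P.w)) hg
  exact this

theorem f_le (hf : Monotone f) (hK : f (P.K * P.w) = P.G * P.g) {k : ℕ} (hk : k ≤ P.K) :
    f (k * P.w) ≤ P.G * P.g := by
  rw [← hK]; exact hf (Nat.mul_le_mul_right _ hk)

theorem jk_le (hg : 0 < P.g) (hf : Monotone f) (hK : f (P.K * P.w) = P.G * P.g) {k : ℕ}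
    (hk : k ≤ P.K) : P.jk f k ≤ P.G := by
  unfold jk
  calc f (k * P.w) / P.g ≤ P.G * P.g / P.g := Nat.div_le_div_right (f_le hf hK hk)
    _ = P.G := Nat.mul_div_cancel _ hg

/-- The drift of the alignment is bounded by its cost. -/
theorem drift (hf : Monotone f) (k k' : ℕ) (h : k ≤ k') :
    f (k * P.w) ≤ f (k' * P.w) ∧ prefixCost X Y f (k * P.w) ≤ prefixCost X Y f (k' * P.w) ∧
    f (k' * P.w) - f (k * P.w) + prefixCost X Y f (k * P.w) ≤
      (k' - k) * P.w + prefixCost X Y f (k' * P.w) ∧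
    (k' - k) * P.w + prefixCost X Y f (k * P.w) ≤
      f (k' * P.w) - f (k * P.w) + prefixCost X Y f (k' * P.w) ∧
    dist X Y (k * P.w) ((k' - k) * P.w) (f (k * P.w)) (f (k' * P.w) - f (k * P.w)) +
      prefixCost X Y f (k * P.w) ≤ prefixCost X Y f (k' * P.w) := by
  have e : k * P.w + (k' - k) * P.w = k' * P.w := by
    rw [← Nat.add_mul]; congr 1; omega
  have h1 := dist_le_prefixCost X Y hf (k * P.w) ((k' - k) * P.w)
  rw [e] at h1
  have h2 := le_dist X Y (k * P.w) ((k' - k) * P.w) (f (k * P.w)) (f (k' * P.w) - f (k * P.w))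
  have h3 : f (k * P.w) ≤ f (k' * P.w) := hf (Nat.mul_le_mul_right _ h)
  refine ⟨h3, ?_, ?_, ?_, h1⟩ <;> omega

/-- Exact cost of a window of `m` window lengths that starts near the alignment. -/
theorem DB_le (hf : Monotone f) (hK : f (P.K * P.w) = P.G * P.g) {m a j s : ℕ}
    (ha : a + m ≤ P.K) (hj : j ≤ P.G) (h1 : j * P.g ≤ f (a * P.w) + s)
    (h2 : f (a * P.w) ≤ j * P.g + s) :
    P.DB X Y m a j + 2 * prefixCost X Y f (a * P.w) ≤
      2 * prefixCost X Y f ((a + m) * P.w) + 2 * s ∧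
    P.nx m j * P.g + prefixCost X Y f (a * P.w) ≤
      f ((a + m) * P.w) + prefixCost X Y f ((a + m) * P.w) + s ∧
    f ((a + m) * P.w) + prefixCost X Y f (a * P.w) ≤
      P.nx m j * P.g + prefixCost X Y f ((a + m) * P.w) + s := by
  obtain ⟨d1, d2, d3, d4, d5⟩ := drift (P := P) (X := X) (Y := Y) hf a (a + m) (by omega)
  rw [show a + m - a = m by omega] at d3 d4 d5
  have hG := f_le hf hK ha
  have hjG := Nat.mul_le_mul_right P.g hj
  have hn := P.nx_mul m j
  have hsh := two_shift X Y (a * P.w) (m * P.w) (P.le_nx_mul m hj) d1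
  unfold DB
  refine ⟨?_, ?_, ?_⟩ <;> omega

/-- One window with a good certificate. -/
theorem step_hub (hg : 0 < P.g) (hf : Monotone f) (hK : f (P.K * P.w) = P.G * P.g)
    {H S : Set ℕ} {N : ℕ → Set ℕ} {V : ℕ → ℕ → ℕ} (M : P.Moves X Y H S N V) {k h : ℕ}
    (hk : k < P.K) (hh : h ∈ H) (hit : P.DB X Y 1 k h ≤ P.DB X Y 1 k (P.jk f k)) :
    V (k + 1) (P.jk f (k + 1)) + 7 * prefixCost X Y f (k * P.w) ≤
      V k (P.jk f k) + 7 * prefixCost X Y f ((k + 1) * P.w) + 8 * P.g := by
  have hj := jk_le (P := P) hg hf hK (k := k) (by omega)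
  have hj' := jk_le (P := P) hg hf hK (k := k + 1) (by omega)
  have e1 := jk_mul_le (P := P) f k
  have e2 := lt_jk_mul (P := P) hg f k
  have e3 := jk_mul_le (P := P) f (k + 1)
  have e4 := lt_jk_mul (P := P) hg f (k + 1)
  obtain ⟨b1, b2, b3⟩ := DB_le (P := P) (X := X) (Y := Y) hf hK (m := 1) (a := k)
    (j := P.jk f k) (s := P.g) (by omega) hj (by omega) (by omega)
  have m1 := M.hub k hk h hh _ hj
  have m2 := M.lip (k + 1) (by omega) _ hj' _ (P.nx_le 1 (P.jk f k))
  have m3 := P.hub_le X Y k h (P.jk f k)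
  obtain ⟨d1, d2, d3, d4, d5⟩ := drift (P := P) (X := X) (Y := Y) hf k (k + 1) (by omega)
  omega

/-- One deleted window. -/
theorem step_del (hg : 0 < P.g) (hf : Monotone f) (hK : f (P.K * P.w) = P.G * P.g)
    {H S : Set ℕ} {N : ℕ → Set ℕ} {V : ℕ → ℕ → ℕ} (M : P.Moves X Y H S N V) {k : ℕ}
    (hk : k < P.K) :
    V (k + 1) (P.jk f (k + 1)) + prefixCost X Y f (k * P.w) ≤
      V k (P.jk f k) + prefixCost X Y f ((k + 1) * P.w) + P.g + 2 * P.w := by
  have hj := jk_le (P := P) hg hf hK (k := k) (by omega)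
  have hj' := jk_le (P := P) hg hf hK (k := k + 1) (by omega)
  have e1 := jk_mul_le (P := P) f k
  have e2 := lt_jk_mul (P := P) hg f k
  have e3 := jk_mul_le (P := P) f (k + 1)
  have e4 := lt_jk_mul (P := P) hg f (k + 1)
  have m1 := M.del k hk _ hj
  have m2 := M.lip (k + 1) (by omega) _ hj' _ hj
  obtain ⟨d1, d2, d3, d4, d5⟩ := drift (P := P) (X := X) (Y := Y) hf k (k + 1) (by omega)
  rw [show k + 1 - k = 1 by omega, Nat.one_mul] at d3 d4 d5
  omega

/-- One block with an exact cost along the diagonal of a sampled window. -/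
theorem step_block (hg : 0 < P.g) (hf : Monotone f) (hK : f (P.K * P.w) = P.G * P.g)
    {H S : Set ℕ} {N : ℕ → Set ℕ} {V : ℕ → ℕ → ℕ} (M : P.Moves X Y H S N V) {i k : ℕ}
    (hi : (i + 1) * P.b ≤ P.K) (hk : k ∈ S) (h1 : i * P.b ≤ k) (h2 : k < (i + 1) * P.b)
    (hN : P.jk f k ∈ N k) :
    V ((i + 1) * P.b) (P.jk f ((i + 1) * P.b)) + 7 * prefixCost X Y f (i * P.b * P.w) ≤
      V (i * P.b) (P.jk f (i * P.b)) + 7 * prefixCost X Y f ((i + 1) * P.b * P.w) + 6 * P.g := by
  have hib : i * P.b + P.b = (i + 1) * P.b := by ring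
  obtain ⟨a, ha⟩ : ∃ a, a = i * P.b := ⟨_, rfl⟩
  obtain ⟨a', ha'⟩ : ∃ a', a' = (i + 1) * P.b := ⟨_, rfl⟩
  have m0 := M.block i hi k hk h1 h2 _ hN
  rw [← ha, ← ha'] at m0
  rw [← ha, ← ha']
  rw [← ha] at h1
  rw [← ha'] at h2 hi
  have hab : a + P.b = a' := by rw [ha, ha', hib]
  have hj := jk_le (P := P) hg hf hK (k := a) (by omega)
  have hj' := jk_le (P := P) hg hf hK (k := a') (by omega)
  have e1 := jk_mul_le (P := P) f k
  have e2 := lt_jk_mul (P := P) hg f k
  have e3 := jk_mul_le (P := P) f a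
  have e4 := lt_jk_mul (P := P) hg f a
  have e5 := jk_mul_le (P := P) f a'
  have e6 := lt_jk_mul (P := P) hg f a'
  obtain ⟨d1, d2, d3, d4, d5⟩ := drift (P := P) (X := X) (Y := Y) hf a k (by omega)
  obtain ⟨d1', d2', d3', d4', d5'⟩ := drift (P := P) (X := X) (Y := Y) hf k a' (by omega)
  have hp := P.p0_mul a k (P.jk f k)
  have hG := f_le (P := P) hf hK (k := a) (by omega)
  obtain ⟨s, hs⟩ : ∃ s, s = P.g + (prefixCost X Y f (k * P.w) - prefixCost X Y f (a * P.w)) :=
    ⟨_, rfl⟩
  obtain ⟨b1, b2, b3⟩ := DB_le (P := P) (X := X) (Y := Y) hf hK (m := P.b) (a := a)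
    (j := P.p0 a k (P.jk f k)) (s := s) (by omega) (P.p0_le _ _ _) (by omega) (by omega)
  rw [hab] at b1 b2 b3
  have m1 := M.lip a (by omega) _ (P.p0_le a k (P.jk f k)) _ hj
  have m2 := M.lip a' (by omega) _ hj' _ (P.nx_le P.b (P.p0 a k (P.jk f k)))
  omega

theorem card_filter_succ (B : Finset ℕ) (k : ℕ) :
    (B.filter (· < k + 1)).card = (B.filter (· < k)).card + if k ∈ B then 1 else 0 := by
  have h : B.filter (· < k + 1) = B.filter (· < k) ∪ B.filter (· = k) := by
    ext t; simp only [Finset.mem_filter, Finset.mem_union]; constructor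
    · rintro ⟨h1, h2⟩
      rcases Nat.lt_succ_iff_lt_or_eq.mp h2 with h | h
      · exact Or.inl ⟨h1, h⟩
      · exact Or.inr ⟨h1, h⟩
    · rintro (⟨h1, h2⟩ | ⟨h1, h2⟩)
      · exact ⟨h1, by omega⟩
      · exact ⟨h1, by omega⟩
  rw [h, Finset.card_union_of_disjoint]
  · congr 1
    split_ifs with hk
    · have : B.filter (· = k) = {k} := by
        ext t; simp only [Finset.mem_filter, Finset.mem_singleton]
        exact ⟨fun h => h.2, fun h => ⟨h ▸ hk, h⟩⟩
      rw [this, Finset.card_singleton]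
    · rw [Finset.card_eq_zero, Finset.filter_eq_empty_iff]
      intro t ht he; exact hk (he ▸ ht)
  · rw [Finset.disjoint_left]
    intro t h1 h2
    simp only [Finset.mem_filter] at h1 h2
    omega

/-- **The deterministic core.** -/
theorem core (hg : 0 < P.g) (hb : 0 < P.b) (hf : Monotone f) (hK : f (P.K * P.w) = P.G * P.g)
    {H S : Set ℕ} {N : ℕ → Set ℕ} {V : ℕ → ℕ → ℕ} (M : P.Moves X Y H S N V) {nb : ℕ}
    (hnb : P.K = nb * P.b) (B : Finset ℕ)
    (hB : ∀ i < nb, (∃ k ∈ S, i * P.b ≤ k ∧ k < (i + 1) * P.b ∧ P.jk f k ∈ N k) ∨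
      ∀ k, i * P.b ≤ k → k < (i + 1) * P.b →
        k ∈ B ∨ ∃ h ∈ H, P.DB X Y 1 k h ≤ P.DB X Y 1 k (P.jk f k)) :
    V P.K P.G ≤ 7 * prefixCost X Y f (P.K * P.w) + 8 * (P.g * P.K) + 2 * (P.w * B.card) := by
  let R : ℕ → Prop := fun k => V k (P.jk f k) + 7 * prefixCost X Y f 0 ≤
    V 0 (P.jk f 0) + 7 * prefixCost X Y f (k * P.w) + 8 * (P.g * k) +
      2 * (P.w * (B.filter (· < k)).card)
  have s1 : ∀ k < P.K, R k →
      (k ∈ B ∨ ∃ h ∈ H, P.DB X Y 1 k h ≤ P.DB X Y 1 k (P.jk f k)) → R (k + 1) := by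
    intro k hk hR hc
    have hc1 := card_filter_succ B k
    simp only [R] at hR ⊢
    have hg1 : P.g * (k + 1) = P.g * k + P.g := by ring
    by_cases hkB : k ∈ B
    · have h1 := step_del hg hf hK M hk
      rw [if_pos hkB] at hc1
      rw [hc1, show P.w * ((B.filter (· < k)).card + 1) =
        P.w * (B.filter (· < k)).card + P.w by ring]
      have h2 := prefixCost_mono X Y f (Nat.mul_le_mul_right P.w (Nat.le_succ k))
      have h3 : Nat.succ k = k + 1 := rfl
      rw [h3] at h2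
      omega
    · rcases hc with hc | ⟨h, hh, hit⟩
      · exact absurd hc hkB
      · have h1 := step_hub hg hf hK M hk hh hit
        rw [if_neg hkB] at hc1
        have hc2 : (B.filter (· < k + 1)).card = (B.filter (· < k)).card := by omega
        rw [hc2]
        omega
  have s2 : ∀ i, i ≤ nb → R (i * P.b) := by
    intro i
    induction i with
    | zero =>
      intro _
      simp only [R, Nat.zero_mul]
      omega
    | succ i ih =>
      intro hi
      have hib : i * P.b + P.b = (i + 1) * P.b := by ring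
      have hiK : (i + 1) * P.b ≤ P.K := by rw [hnb]; exact Nat.mul_le_mul_right _ hi
      rcases hB i hi with ⟨k, hk, h1, h2, hN⟩ | hall
      · have h3 := step_block hg hf hK M hiK hk h1 h2 hN
        have h4 := ih (by omega)
        simp only [R] at h4 ⊢
        have h5 : (B.filter (· < i * P.b)).card ≤ (B.filter (· < (i + 1) * P.b)).card := by
          apply Finset.card_le_card
          intro t ht
          simp only [Finset.mem_filter] at ht ⊢
          exact ⟨ht.1, by omega⟩
        have h6 := Nat.mul_le_mul_left P.w h5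
        have h7 : P.g * ((i + 1) * P.b) = P.g * (i * P.b) + P.g * P.b := by ring
        have h8 : P.g ≤ P.g * P.b := Nat.le_mul_of_pos_right _ hb
        omega
      · have h3 : ∀ t ≤ P.b, R (i * P.b + t) := by
          intro t
          induction t with
          | zero => intro _; exact ih (by omega)
          | succ t iht =>
            intro ht
            exact s1 (i * P.b + t) (by omega) (iht (by omega))
              (hall (i * P.b + t) (by omega) (by omega))
        have := h3 P.b le_rfl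
        rwa [hib] at this
  have h1 := s2 nb le_rfl
  rw [← hnb] at h1
  simp only [R] at h1
  have e1 : P.jk f P.K = P.G := by
    unfold jk; rw [hK, Nat.mul_div_cancel _ hg]
  rw [e1] at h1
  have e2 := M.zero (P.jk f 0) (jk_le hg hf hK (by omega))
  have e3 := jk_mul_le (P := P) f 0
  rw [Nat.zero_mul] at e3
  have e4 := prefixCost_zero X Y f
  have e5 : (B.filter (· < P.K)).card ≤ B.card := Finset.card_le_card (Finset.filter_subset _ _)
  have e6 := Nat.mul_le_mul_left P.w e5
  omega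

end

end Geo

end Vale.Agent.P315.Start
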