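import Vale.Agent.P315.H36.Cost

/-!
The time of the START phase: `sz * (r4 + 2) ^ 6 + Kr * nS * q.tot * 100` is at most
`C * Z ^ 18 * (N + 1) ^ (39/20)` if the numbers of rows, starts, ends, `2 ^ lam`, `2 ^ kap` are at
most `Z` and the length of a row is at most `N + 1`; the sizes of the numbers.
-/

set_option autoImplicit false

namespace Vale.Agent.P315.H142

open Vale.Agent.P315.H36

section nat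

variable {q : SP} {l2 Z N : ℕ}

theorem loops_le_pow (hZ1 : 2 ^ q.lam ≤ Z) (hZ2 : 2 ^ q.kap ≤ Z) :
    q.loops ≤ 2 ^ 20 * 2 ^ (q.e / 5) * Z ^ 3 := by
  unfold SP.loops
  calc 2 ^ (q.e / 5 + 20 + 2 * q.lam + q.kap)
      = 2 ^ 20 * 2 ^ (q.e / 5) * ((2 ^ q.lam) ^ 2 * 2 ^ q.kap) := by
        rw [pow_add, pow_add, pow_add, mul_comm 2 q.lam, pow_mul]; ring
    _ ≤ 2 ^ 20 * 2 ^ (q.e / 5) * (Z ^ 2 * Z) :=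
        Nat.mul_le_mul_left _ (Nat.mul_le_mul (Nat.pow_le_pow_left hZ1 2) hZ2)
    _ = _ := by ring

theorem loops_le_lin (he : 2 ^ q.e ≤ N + 1) (hZ1 : 2 ^ q.lam ≤ Z) (hZ2 : 2 ^ q.kap ≤ Z) :
    q.loops ≤ 2 ^ 20 * (N + 1) * Z ^ 3 := by
  refine (loops_le_pow hZ1 hZ2).trans (Nat.mul_le_mul_right _ (Nat.mul_le_mul_left _ ?_))
  exact (Nat.pow_le_pow_right (by norm_num) (Nat.div_le_self _ _)).trans he

theorem tot_le_pow (h : q.Ok) (he : 2 ^ q.e ≤ N + 1) (hZ1 : 2 ^ q.lam ≤ Z)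
    (hZ2 : 2 ^ q.kap ≤ Z) : q.tot ≤ 2 ^ 30 * Z ^ 4 * (N + 1) ^ 2 := by
  refine (SP.tot_le h).trans ?_
  calc 2 ^ (30 + 3 * q.lam + q.kap + (2 * q.e - q.ld))
      = 2 ^ 30 * ((2 ^ q.lam) ^ 3 * 2 ^ q.kap) * 2 ^ (2 * q.e - q.ld) := by
        rw [pow_add, pow_add, pow_add, mul_comm 3 q.lam, pow_mul]; ring
    _ ≤ 2 ^ 30 * (Z ^ 3 * Z) * (N + 1) ^ 2 := by
        refine Nat.mul_le_mul (Nat.mul_le_mul_left _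
          (Nat.mul_le_mul (Nat.pow_le_pow_left hZ1 3) hZ2)) ?_
        calc 2 ^ (2 * q.e - q.ld) ≤ 2 ^ (q.e * 2) :=
              Nat.pow_le_pow_right (by norm_num) (by omega)
          _ = (2 ^ q.e) ^ 2 := by rw [pow_mul]
          _ ≤ (N + 1) ^ 2 := Nat.pow_le_pow_left he 2
    _ = _ := by ring

theorem win_le (h : q.Ok) (he : 2 ^ q.e ≤ N + 1) :
    (2 ^ q.lc + 1) * (2 ^ q.lc + 2) ≤ (N + 3) ^ 2 := by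
  have h1 := SP.lc_le h
  have h2 : 2 ^ q.lc ≤ N + 1 := (Nat.pow_le_pow_right (by norm_num) (by omega)).trans he
  rw [pow_two]
  exact Nat.mul_le_mul (by omega) (by omega)

theorem pos_le_lin (he : 2 ^ q.e ≤ N + 1) : 2 ^ (q.e + 3) ≤ 8 * (N + 1) := by
  rw [pow_add]; omega

end nat

/-- `2 ^ (e/5)` to the sixth power. -/
theorem fifth_le {e N : ℕ} (he : 2 ^ e ≤ N + 1) :
    ((2 ^ (e / 5) : ℕ) : ℝ) ^ 6 ≤ ((N : ℝ) + 1) ^ (39 / 20 : ℝ) := by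
  have hx : (0 : ℝ) ≤ ((2 ^ (e / 5) : ℕ) : ℝ) := Nat.cast_nonneg _
  have h1 : ((2 ^ (e / 5) : ℕ) : ℝ) ^ 5 ≤ (N : ℝ) + 1 := by
    have : (2 ^ (e / 5)) ^ 5 ≤ N + 1 := by
      rw [← pow_mul]
      exact (Nat.pow_le_pow_right (by norm_num) (Nat.div_mul_le_self e 5)).trans he
    exact_mod_cast this
  have hN : (1 : ℝ) ≤ (N : ℝ) + 1 := by
    have : (0 : ℝ) ≤ N := Nat.cast_nonneg N
    linarith
  calc ((2 ^ (e / 5) : ℕ) : ℝ) ^ 6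
      = (((2 ^ (e / 5) : ℕ) : ℝ) ^ 5) ^ (6 / 5 : ℝ) := by
        rw [← Real.rpow_natCast _ 5, ← Real.rpow_mul hx, ← Real.rpow_natCast _ 6]
        norm_num
    _ ≤ ((N : ℝ) + 1) ^ (6 / 5 : ℝ) :=
        Real.rpow_le_rpow (pow_nonneg hx 5) h1 (by norm_num)
    _ ≤ ((N : ℝ) + 1) ^ (39 / 20 : ℝ) :=
        Real.rpow_le_rpow_of_exponent_le hN (by norm_num)

/-- **Time of the START phase.** -/
theorem start_time {q : SP} (h : q.Ok) {sz l2 Kr nS Z N r4 : ℕ} (he : 2 ^ q.e ≤ 2 * l2)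
    (hl : 2 * l2 ≤ N + 1) (hZ : 1 ≤ Z) (hK : Kr ≤ Z) (hS : nS ≤ Z) (hZ1 : 2 ^ q.lam ≤ Z)
    (hZ2 : 2 ^ q.kap ≤ Z) (h4 : r4 ≤ max q.loops Z) :
    ((sz * (r4 + 2) ^ 6 + Kr * nS * q.tot * 100 : ℕ) : ℝ) ≤
      (sz * 2 ^ 132 + 200 * 2 ^ 30) * ((Z : ℝ) ^ 18 * ((N : ℝ) + 1) ^ (39 / 20 : ℝ)) := by
  have hN : (1 : ℝ) ≤ (N : ℝ) + 1 := by
    have : (0 : ℝ) ≤ N := Nat.cast_nonneg N
    linarith
  have hT : (0 : ℝ) ≤ ((N : ℝ) + 1) ^ (39 / 20 : ℝ) := Real.rpow_nonneg (by linarith) _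
  have hZr : (1 : ℝ) ≤ Z := by exact_mod_cast hZ
  -- first part
  have a1 : r4 + 2 ≤ 2 ^ 22 * (2 ^ (q.e / 5) * Z ^ 3) := by
    have b1 := loops_le_pow (q := q) hZ1 hZ2
    have b2 : 1 ≤ 2 ^ (q.e / 5) := Nat.one_le_two_pow
    have b3 : Z ≤ Z ^ 3 := Nat.le_self_pow (by norm_num) Z
    have b4 : Z ^ 3 ≤ 2 ^ (q.e / 5) * Z ^ 3 := Nat.le_mul_of_pos_left _ b2
    have b5 : 2 ^ 20 * 2 ^ (q.e / 5) * Z ^ 3 = 2 ^ 20 * (2 ^ (q.e / 5) * Z ^ 3) := by ring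
    have b6 : r4 ≤ q.loops + Z := h4.trans (max_le (Nat.le_add_right _ _) (Nat.le_add_left _ _))
    omega
  have a2 : (((r4 + 2) ^ 6 : ℕ) : ℝ) ≤
      2 ^ 132 * ((Z : ℝ) ^ 18 * ((N : ℝ) + 1) ^ (39 / 20 : ℝ)) := by
    have c1 : (((r4 + 2) ^ 6 : ℕ) : ℝ) ≤ ((2 ^ 22 * (2 ^ (q.e / 5) * Z ^ 3) : ℕ) : ℝ) ^ 6 := by
      have := Nat.pow_le_pow_left a1 6
      exact_mod_cast this
    refine c1.trans ?_
    have c2 := fifth_le (he.trans hl)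
    have c3 : ((2 ^ 22 * (2 ^ (q.e / 5) * Z ^ 3) : ℕ) : ℝ) ^ 6 =
        2 ^ 132 * (((2 ^ (q.e / 5) : ℕ) : ℝ) ^ 6 * (Z : ℝ) ^ 18) := by
      push_cast; ring
    rw [c3]
    refine mul_le_mul_of_nonneg_left ?_ (by positivity)
    rw [mul_comm]
    exact mul_le_mul_of_nonneg_left c2 (by positivity)
  -- second part
  have a3 : ((Kr * nS * q.tot * 100 : ℕ) : ℝ) ≤
      (200 * 2 ^ 30) * ((Z : ℝ) ^ 18 * ((N : ℝ) + 1) ^ (39 / 20 : ℝ)) := by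
    have d1 : Kr * nS * q.tot ≤ Z * Z * (2 ^ 30 * Z ^ 4 * 2 ^ (2 * q.e - q.ld)) := by
      refine Nat.mul_le_mul (Nat.mul_le_mul hK hS) ((SP.tot_le h).trans ?_)
      calc 2 ^ (30 + 3 * q.lam + q.kap + (2 * q.e - q.ld))
          = 2 ^ 30 * ((2 ^ q.lam) ^ 3 * 2 ^ q.kap) * 2 ^ (2 * q.e - q.ld) := by
            rw [pow_add, pow_add, pow_add, mul_comm 3 q.lam, pow_mul]; ring
        _ ≤ 2 ^ 30 * (Z ^ 3 * Z) * 2 ^ (2 * q.e - q.ld) :=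
            Nat.mul_le_mul_right _ (Nat.mul_le_mul_left _
              (Nat.mul_le_mul (Nat.pow_le_pow_left hZ1 3) hZ2))
        _ = _ := by ring
    have d2 : ((2 ^ (2 * q.e - q.ld) : ℕ) : ℝ) ≤ 2 * ((N : ℝ) + 1) ^ (39 / 20 : ℝ) := by
      refine (SP.pow_le_rpow he).trans ?_
      refine mul_le_mul_of_nonneg_left ?_ (by norm_num)
      refine Real.rpow_le_rpow (Nat.cast_nonneg _) ?_ (by norm_num)
      exact_mod_cast hl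
    have d3 : ((Kr * nS * q.tot * 100 : ℕ) : ℝ) ≤
        100 * 2 ^ 30 * ((Z : ℝ) ^ 6 * ((2 ^ (2 * q.e - q.ld) : ℕ) : ℝ)) := by
      have e1 : ((Kr * nS * q.tot : ℕ) : ℝ) ≤
          ((Z * Z * (2 ^ 30 * Z ^ 4 * 2 ^ (2 * q.e - q.ld)) : ℕ) : ℝ) := Nat.cast_le.2 d1
      have e2 : ((Z * Z * (2 ^ 30 * Z ^ 4 * 2 ^ (2 * q.e - q.ld)) : ℕ) : ℝ) =
          2 ^ 30 * ((Z : ℝ) ^ 6 * ((2 ^ (2 * q.e - q.ld) : ℕ) : ℝ)) := by push_cast; ring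
      rw [e2] at e1
      have e3 : ((Kr * nS * q.tot * 100 : ℕ) : ℝ) = ((Kr * nS * q.tot : ℕ) : ℝ) * 100 := by
        push_cast; ring
      rw [e3]
      linarith
    refine d3.trans ?_
    have d4 : (Z : ℝ) ^ 6 ≤ (Z : ℝ) ^ 18 := pow_le_pow_right₀ hZr (by norm_num)
    have d5 : (Z : ℝ) ^ 6 * ((2 ^ (2 * q.e - q.ld) : ℕ) : ℝ) ≤
        (Z : ℝ) ^ 18 * (2 * ((N : ℝ) + 1) ^ (39 / 20 : ℝ)) :=
      mul_le_mul d4 d2 (Nat.cast_nonneg _) (by positivity)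
    calc 100 * 2 ^ 30 * ((Z : ℝ) ^ 6 * ((2 ^ (2 * q.e - q.ld) : ℕ) : ℝ))
        ≤ 100 * 2 ^ 30 * ((Z : ℝ) ^ 18 * (2 * ((N : ℝ) + 1) ^ (39 / 20 : ℝ))) :=
          mul_le_mul_of_nonneg_left d5 (by norm_num)
      _ = _ := by ring
  have a4 : ((sz * (r4 + 2) ^ 6 + Kr * nS * q.tot * 100 : ℕ) : ℝ) =
      (sz : ℝ) * (((r4 + 2) ^ 6 : ℕ) : ℝ) + ((Kr * nS * q.tot * 100 : ℕ) : ℝ) := by
    push_cast; ring
  rw [a4]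
  have a5 : (sz : ℝ) * (((r4 + 2) ^ 6 : ℕ) : ℝ) ≤
      (sz : ℝ) * (2 ^ 132 * ((Z : ℝ) ^ 18 * ((N : ℝ) + 1) ^ (39 / 20 : ℝ))) :=
    mul_le_mul_of_nonneg_left a2 (Nat.cast_nonneg _)
  calc _ ≤ (sz : ℝ) * (2 ^ 132 * ((Z : ℝ) ^ 18 * ((N : ℝ) + 1) ^ (39 / 20 : ℝ))) +
        (200 * 2 ^ 30) * ((Z : ℝ) ^ 18 * ((N : ℝ) + 1) ^ (39 / 20 : ℝ)) := add_le_add a5 a3
    _ = _ := by ring

/-- A small power of `N` in the place of `Z`. -/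
theorem pow18_le {Z N : ℕ} {c : ℝ} (hc : 0 ≤ c)
    (hZ : (Z : ℝ) ≤ c * ((N : ℝ) + 1) ^ (1 / 720 : ℝ)) :
    (Z : ℝ) ^ 18 * ((N : ℝ) + 1) ^ (39 / 20 : ℝ) ≤
      c ^ 18 * ((N : ℝ) + 1) ^ (2 - 1 / 40 : ℝ) := by
  have hN : (0 : ℝ) < (N : ℝ) + 1 := by positivity
  have h1 : (Z : ℝ) ^ 18 ≤ (c * ((N : ℝ) + 1) ^ (1 / 720 : ℝ)) ^ 18 :=
    pow_le_pow_left₀ (Nat.cast_nonneg _) hZ 18
  have h2 : (c * ((N : ℝ) + 1) ^ (1 / 720 : ℝ)) ^ 18 =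
      c ^ 18 * ((N : ℝ) + 1) ^ (1 / 40 : ℝ) := by
    rw [mul_pow, ← Real.rpow_natCast (((N : ℝ) + 1) ^ (1 / 720 : ℝ)) 18,
      ← Real.rpow_mul hN.le]
    norm_num
  rw [h2] at h1
  calc (Z : ℝ) ^ 18 * ((N : ℝ) + 1) ^ (39 / 20 : ℝ)
      ≤ (c ^ 18 * ((N : ℝ) + 1) ^ (1 / 40 : ℝ)) * ((N : ℝ) + 1) ^ (39 / 20 : ℝ) :=
        mul_le_mul_of_nonneg_right h1 (Real.rpow_nonneg hN.le _)
    _ = c ^ 18 * (((N : ℝ) + 1) ^ (1 / 40 : ℝ) * ((N : ℝ) + 1) ^ (39 / 20 : ℝ)) := by ring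
    _ = _ := by rw [← Real.rpow_add hN]; norm_num

/-- **Time of the START phase, truly subquadratic.** -/
theorem start_time' {q : SP} (h : q.Ok) {sz l2 Kr nS Z N r4 : ℕ} {c : ℝ} (hc : 0 ≤ c)
    (he : 2 ^ q.e ≤ 2 * l2) (hl : 2 * l2 ≤ N + 1) (hZ : 1 ≤ Z) (hK : Kr ≤ Z) (hS : nS ≤ Z)
    (hZ1 : 2 ^ q.lam ≤ Z) (hZ2 : 2 ^ q.kap ≤ Z) (h4 : r4 ≤ max q.loops Z)
    (hZc : (Z : ℝ) ≤ c * ((N : ℝ) + 1) ^ (1 / 720 : ℝ)) :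
    ((sz * (r4 + 2) ^ 6 + Kr * nS * q.tot * 100 : ℕ) : ℝ) ≤
      (sz * 2 ^ 132 + 200 * 2 ^ 30) * c ^ 18 * ((N : ℝ) + 1) ^ (2 - 1 / 40 : ℝ) := by
  refine (start_time h he hl hZ hK hS hZ1 hZ2 h4).trans ?_
  rw [mul_assoc]
  exact mul_le_mul_of_nonneg_left (pow18_le hc hZc) (by positivity)

end Vale.Agent.P315.H142
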