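import Vale.Agent.P315.H142.Rows
import Vale.Agent.P315.H817.Fn
import Vale.Agent.P315.DP

/-! The rows of the base algorithm on the clamped language: from the window table (array `143`)
and the block table (array `144`) to all block rows (array `147`, stride `JJ + 1`), in the register
convention of `Rows.lean`: `144` grid step, `160` window length in grid steps, `146` windows per
block, `147` number of blocks, `161` number of grid points, `162` window length, `163` largest
index. Scratch: registers `170`-`172`, arrays `145`, `146`. -/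

set_option autoImplicit false

namespace Vale.Agent.P315.H142.Sweep2

open Vale.Agent.P315 Vale.Agent.P315.H36 Vale.Agent.P315.H817 Vale.Agent.P315.H142

/-- Largest index of a row. -/
def eJ : Expr := .reg 163

/-- Forward sweep in array `146`. -/
def fwdHP : HP := .loop 172 eJ
  (.put 146 (eadd (.reg 172) (.lit 1)) (emin (.get 146 (eadd (.reg 172) (.lit 1)))
    (eadd (.get 146 (.reg 172)) (.reg 144))))

/-- Backward sweep from array `146` to array `D` at base address `ba`. -/
def bwdHP (D : ℕ) (ba : Expr) : HP := .seq (.put D (eadd ba eJ) (.get 146 eJ))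
  (.loop 172 eJ
    (.put D (eadd ba (esub eJ (eadd (.reg 172) (.lit 1))))
      (emin (.get 146 (esub eJ (eadd (.reg 172) (.lit 1))))
        (eadd (.get D (eadd ba (esub eJ (.reg 172)))) (.reg 144)))))

/-- Copy to array `A` (a whole row). -/
def copyHP (A : ℕ) (e : Expr) : HP := .loop 172 (eadd (.reg 163) (.lit 1)) (.put A (.reg 172) e)

/-- Minimum with a shifted row. -/
def shiftHP (eV e : Expr) : HP := .loop 172 (.reg 161)
  (.put 146 (eadd (.reg 172) eV) (emin (.get 146 (eadd (.reg 172) eV)) e))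

/-- Base address of the block row `a`. -/
def eRow : Expr := emul (.reg 170) (eadd (.reg 163) (.lit 1))

/-- Base address of the block row `a + 1`. -/
def eRow1 : Expr := emul (eadd (.reg 170) (.lit 1)) (eadd (.reg 163) (.lit 1))

/-- One window row. -/
def winHP : HP := .seq (copyHP 146 (eadd (.get 145 (.reg 172)) (.reg 162)))
  (.seq (shiftHP (.reg 160) (eadd (.get 145 (.reg 172))
      (.get 143 (eadd (emul (eadd (emul (.reg 170) (.reg 146)) (.reg 171)) (.reg 161))
        (.reg 172)))))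
    (.seq fwdHP (bwdHP 145 (.lit 0))))

/-- One block. -/
def blkHP : HP := .seq (copyHP 145 (.get 147 (eadd eRow (.reg 172))))
  (.seq (.loop 171 (.reg 146) winHP)
    (.seq (copyHP 146 (.get 145 (.reg 172)))
      (.seq (shiftHP (emul (.reg 146) (.reg 160)) (eadd (.get 147 (eadd eRow (.reg 172)))
          (.get 144 (eadd (emul (.reg 170) (.reg 161)) (.reg 172)))))
        (.seq fwdHP (bwdHP 147 eRow1)))))

/-- All rows. -/
def sweepHP : HP := .seq (copyHP 147 (emul (.reg 172) (.reg 144))) (.loop 170 (.reg 147) blkHP)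

variable {ρ : ℕ → ℕ}

theorem Wp_fwd {s : State} {g J : ℕ} {c : ℕ → ℕ} (hg : s.reg 144 = g) (hJ : s.reg 163 = J)
    (hL : J ≤ s.reg 4) (hc : ∀ j ≤ J, s.arr 146 j = c j) (hR : ∀ j ≤ J, c j ≤ s.reg 3) :
    Wp ρ fwdHP (fun s' => ∀ j ≤ J, s'.arr 146 j = fwd g c j) s := by
  unfold fwdHP
  refine Wp.loopF J (by simp [hJ, eJ]) hL
    (fun t s' => ∀ j ≤ J, s'.arr 146 j = if j ≤ t then fwd g c j else c j) ?_ ?_ ?_
  · intro j hj
    by_cases h : j ≤ 0
    · obtain rfl : j = 0 := by omega
      simp [fwd, hc 0 (by omega)]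
    · rw [if_neg h, hc j hj]
  · intro t ht s' hf hI
    have h3 : s'.reg 3 = s.reg 3 := hf.reg 3 (by decide)
    have hg' : s'.reg 144 = g := by rw [hf.reg 144 (by decide)]; exact hg
    have e1 : s'.arr 146 (t + 1) = c (t + 1) := by rw [hI _ (by omega), if_neg (by omega)]
    have e2 : s'.arr 146 t = fwd g c t := by rw [hI _ (by omega), if_pos le_rfl]
    refine Wp.put (t + 1) (fwd g c (t + 1)) ?_ ?_ ?_ ?_
    · simp
    · simp [fwd, e1, e2, hg']
    · simp only [State.setReg_reg]
      rw [if_neg (by decide), h3]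
      exact (min_le_left _ _).trans (hR _ (by omega))
    · intro j hj
      by_cases hjt : j = t + 1
      · subst hjt; simp
      · simp only [State.setArr_arr, State.setReg_arr, hjt, and_false, if_false]
        rw [hI j hj]
        by_cases h : j ≤ t
        · rw [if_pos h, if_pos (by omega)]
        · rw [if_neg h, if_neg (by omega)]
  · intro s' _ hI j hj
    rw [hI j hj, if_pos hj]

theorem Wp_bwd {s : State} {D g J β : ℕ} {ba : Expr} {c : ℕ → ℕ} {Z : ℕ → ℕ} (hD : D ≠ 146)
    (hg : s.reg 144 = g) (hJ : s.reg 163 = J) (hL : J ≤ s.reg 4)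
    (hc : ∀ j ≤ J, s.arr 146 j = c j) (hR : ∀ j ≤ J, c j ≤ s.reg 3)
    (hb : ∀ s', Frame s s' [172] [D] → ba.eval s' = β)
    (hZ : ∀ a < β, s.arr D a = Z a) :
    Wp ρ (bwdHP D ba) (fun s' => (∀ j ≤ J, s'.arr D (β + j) = bwd g c J (J - j)) ∧
      ∀ a < β, s'.arr D a = Z a) s := by
  unfold bwdHP
  have hD' : (146 : ℕ) ≠ D := fun h => hD h.symm
  have hb0 : ba.eval s = β := hb s (Frame.refl _ _ _)
  refine Wp.seqF (fun s' => s'.arr D (β + J) = c J ∧ ∀ a < β, s'.arr D a = Z a) ?_ ?_
  · refine Wp.put (β + J) (c J) (by simp [hJ, hb0, eJ]) (by simp [hJ, hc J le_rfl, eJ])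
      (hR J le_rfl) ?_
    refine ⟨by simp, fun a ha => ?_⟩
    rw [State.setArr_arr, if_neg (by omega)]
    exact hZ a ha
  · intro s1 hf1 h1
    have hf1' : Frame s s1 [172] [D] := hf1.mono (by simp [HP.wr]) (by simp [HP.wa])
    have a1 : ∀ j ≤ J, s1.arr 146 j = c j := by
      intro j hj
      rw [hf1'.arr 146 (by simp [hD'])]; exact hc j hj
    have g1 : s1.reg 144 = g := by rw [hf1'.reg 144 (by simp)]; exact hg
    have J1 : s1.reg 163 = J := by rw [hf1'.reg 163 (by simp)]; exact hJ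
    have r3 : s1.reg 3 = s.reg 3 := hf1'.reg 3 (by simp)
    have r4 : s1.reg 4 = s.reg 4 := hf1'.reg 4 (by simp)
    refine Wp.loopF J (by simp [J1, eJ]) (by rw [r4]; exact hL)
      (fun t s' => (∀ u ≤ t, s'.arr D (β + (J - u)) = bwd g c J u) ∧ ∀ a < β, s'.arr D a = Z a)
      ?_ ?_ ?_
    · refine ⟨fun u hu => ?_, h1.2⟩
      obtain rfl : u = 0 := by omega
      simpa [bwd] using h1.1
    · intro t ht s' hf hI
      have hf' : Frame s s' [172] [D] :=
        hf1'.trans (hf.mono (by simp [HP.wr]) (by simp [HP.wa]))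
      have hf'' : Frame s (s'.setReg 172 t) [172] [D] :=
        hf'.trans ((frame_setReg s' 172 t).mono (by simp) (by simp))
      have h3 : s'.reg 3 = s.reg 3 := hf'.reg 3 (by simp)
      have hg' : s'.reg 144 = g := by rw [hf'.reg 144 (by simp)]; exact hg
      have hJ' : s'.reg 163 = J := by rw [hf'.reg 163 (by simp)]; exact hJ
      have hb' : ba.eval (s'.setReg 172 t) = β := hb _ hf''
      have e1 : s'.arr 146 (J - (t + 1)) = c (J - (t + 1)) := by
        rw [hf'.arr 146 (by simp [hD'])]; exact hc _ (by omega)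
      have e2 : s'.arr D (β + (J - t)) = bwd g c J t := hI.1 t le_rfl
      refine Wp.put (β + (J - (t + 1))) (bwd g c J (t + 1)) ?_ ?_ ?_ ?_
      · simp [hJ', hb', eJ]
      · simp [bwd, e1, e2, hg', hJ', hb', eJ]
      · simp only [State.setReg_reg]
        rw [if_neg (by decide), h3]
        exact (min_le_left _ _).trans (hR _ (by omega))
      · refine ⟨fun u hu => ?_, fun a ha => ?_⟩
        · by_cases hut : u = t + 1
          · subst hut; simp
          · have hne : β + (J - u) ≠ β + (J - (t + 1)) := by omega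
            simp only [State.setArr_arr, State.setReg_arr, hne, and_false, if_false]
            exact hI.1 u (by omega)
        · rw [State.setArr_arr, if_neg (by omega)]
          exact hI.2 a ha
    · intro s' _ hI
      refine ⟨fun j hj => ?_, hI.2⟩
      have := hI.1 (J - j) (by omega)
      rwa [Nat.sub_sub_self hj] at this

/-- The two sweeps. -/
theorem Wp_lip {s : State} {D g J β : ℕ} {ba : Expr} {c : ℕ → ℕ} {Z : ℕ → ℕ} (hD : D ≠ 146)
    (hg : s.reg 144 = g) (hJ : s.reg 163 = J) (hL : J ≤ s.reg 4)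
    (hc : ∀ j ≤ J, s.arr 146 j = c j) (hR : ∀ j ≤ J, c j ≤ s.reg 3)
    (hb : ∀ s', Frame s s' [172] [D, 146] → ba.eval s' = β)
    (hZ : ∀ a < β, s.arr D a = Z a) :
    Wp ρ (.seq fwdHP (bwdHP D ba)) (fun s' => (∀ j ≤ J, s'.arr D (β + j) = lipc g c J j) ∧
      ∀ a < β, s'.arr D a = Z a) s := by
  refine Wp.seqF _ (Wp_fwd hg hJ hL hc hR) ?_
  intro s1 hf h1
  have hf' : Frame s s1 [172] [146] := hf.mono (by simp [HP.wr, fwdHP]) (by simp [HP.wa, fwdHP])
  have r3 : s1.reg 3 = s.reg 3 := hf'.reg 3 (by simp)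
  have r4 : s1.reg 4 = s.reg 4 := hf'.reg 4 (by simp)
  refine Wp_bwd hD (by rw [hf'.reg 144 (by simp)]; exact hg)
    (by rw [hf'.reg 163 (by simp)]; exact hJ) (by rw [r4]; exact hL) h1 ?_ ?_ ?_
  · intro j hj
    rw [r3]
    exact (fwd_le g c j).trans (hR j hj)
  · intro s' hs'
    exact hb s' ((hf'.mono (by simp) (by simp)).trans (hs'.mono (by simp) (by simp)))
  · intro a ha
    rw [hf'.arr D (by simpa using hD)]; exact hZ a ha

/-- Copy of a row. -/
theorem Wp_copy {s : State} {A J : ℕ} {e : Expr} (c : ℕ → ℕ) (hJ : s.reg 163 = J)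
    (hL : J + 1 ≤ s.reg 4) (hR : ∀ j ≤ J, c j ≤ s.reg 3)
    (he : ∀ t ≤ J, ∀ s', Frame s s' [172] [A] → (∀ a, t ≤ a → s'.arr A a = s.arr A a) →
      e.eval (s'.setReg 172 t) = c t) :
    Wp ρ (copyHP A e) (fun s' => ∀ j ≤ J, s'.arr A j = c j) s := by
  unfold copyHP
  refine Wp.loopF (J + 1) (by simp [hJ]) hL
    (fun t s' => (∀ j < t, s'.arr A j = c j) ∧ ∀ a, t ≤ a → s'.arr A a = s.arr A a)
    ⟨fun j hj => absurd hj (by omega), fun _ _ => rfl⟩ ?_
    (fun s' _ h j hj => h.1 j (by omega))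
  intro t ht s' hf hI
  have hf' : Frame s s' [172] [A] := hf.mono (by simp [HP.wr]) (by simp [HP.wa])
  refine Wp.put t (c t) (by simp) (he t (by omega) s' hf' hI.2) ?_ ?_
  · simp only [State.setReg_reg]
    rw [if_neg (by decide), hf'.reg 3 (by simp)]
    exact hR t (by omega)
  · refine ⟨fun j hj => ?_, fun a ha => ?_⟩
    · by_cases hjt : j = t
      · subst hjt; simp
      · simp only [State.setArr_arr, State.setReg_arr, hjt, and_false, if_false]
        exact hI.1 j (by omega)
    · rw [State.setArr_arr, if_neg (by omega)]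
      exact hI.2 a (by omega)

/-- Minimum with shifted entries. -/
theorem Wp_shift {s : State} {V M J : ℕ} (c Z : ℕ → ℕ) {eV e : Expr}
    (hM : s.reg 161 = M) (hVJ : M + V ≤ J + 1)
    (hL : M ≤ s.reg 4) (hc : ∀ j ≤ J, s.arr 146 j = c j) (hR : ∀ j ≤ J, c j ≤ s.reg 3)
    (hV : ∀ s', Frame s s' [172] [146] → eV.eval s' = V)
    (he : ∀ t < M, ∀ s', Frame s s' [172] [146] → e.eval (s'.setReg 172 t) = Z t) :
    Wp ρ (shiftHP eV e)
      (fun s' => ∀ j ≤ J, s'.arr 146 j = if V ≤ j ∧ j < M + V then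
        min (c j) (Z (j - V)) else c j) s := by
  unfold shiftHP
  refine Wp.loopF M (by simp [hM]) hL
    (fun t s' => ∀ j ≤ J, s'.arr 146 j = if V ≤ j ∧ j < t + V then
        min (c j) (Z (j - V)) else c j) ?_ ?_ ?_
  · intro j hj
    rw [if_neg (by omega)]; exact hc j hj
  · intro t ht s' hf hI
    have hf' : Frame s s' [172] [146] := hf.mono (by simp [HP.wr]) (by simp [HP.wa])
    have hf'' : Frame s (s'.setReg 172 t) [172] [146] :=
      hf'.trans ((frame_setReg s' 172 t).mono (by simp) (by simp))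
    have h3 : s'.reg 3 = s.reg 3 := hf'.reg 3 (by decide)
    have hV' : eV.eval (s'.setReg 172 t) = V := hV _ hf''
    have e1 : s'.arr 146 (t + V) = c (t + V) := by
      rw [hI _ (by omega), if_neg (by omega)]
    have e3 := he t ht s' hf'
    refine Wp.put (t + V) (min (c (t + V)) (Z t)) ?_ ?_ ?_ ?_
    · simp [hV']
    · simp [hV', e1, e3]
    · simp only [State.setReg_reg]
      rw [if_neg (by decide), h3]
      exact (min_le_left _ _).trans (hR _ (by omega))
    · intro j hj
      by_cases hjt : j = t + V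
      · subst hjt; simp
      · simp only [State.setArr_arr, State.setReg_arr, hjt, and_false, if_false]
        rw [hI j hj]
        by_cases h : V ≤ j ∧ j < t + V
        · rw [if_pos h, if_pos (by omega)]
        · rw [if_neg h, if_neg (by omega)]
  · intro s' _ hI j hj
    exact hI j hj

/-- What the rows need from the state. -/
structure RowEnv (P : Pm) (A B : ℕ → ℕ → ℕ) (s : State) : Prop where
  r142 : s.reg 144 = P.g
  r143 : s.reg 160 = P.v
  r144 : s.reg 146 = P.b
  r145 : s.reg 147 = P.K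
  r146 : s.reg 161 = P.M
  r151 : s.reg 162 = P.w
  r163 : s.reg 163 = JJ P
  a141 : ∀ i < P.k, ∀ j < P.M, s.arr 143 (i * P.M + j) = A i j
  a142 : ∀ a < P.K, ∀ j < P.M, s.arr 144 (a * P.M + j) = B a j
  l1 : JJ P + 1 ≤ s.reg 4
  l2 : P.K ≤ s.reg 4
  l3 : P.b ≤ s.reg 4
  b1 : JJ P * P.g + P.k * P.w ≤ s.reg 3

theorem RowEnv.frame {P : Pm} {A B : ℕ → ℕ → ℕ} {s s' : State} {wr wa : List ℕ}
    (h : RowEnv P A B s) (hf : Frame s s' wr wa) (h1 : ∀ k ∈ wr, k ∈ [170, 171, 172])
    (h2 : ∀ k ∈ wa, k ∈ [145, 146, 147]) : RowEnv P A B s' := by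
  have hf := hf.mono h1 h2
  exact ⟨by rw [hf.reg 144 (by decide)]; exact h.r142, by rw [hf.reg 160 (by decide)]; exact h.r143,
    by rw [hf.reg 146 (by decide)]; exact h.r144, by rw [hf.reg 147 (by decide)]; exact h.r145,
    by rw [hf.reg 161 (by decide)]; exact h.r146, by rw [hf.reg 162 (by decide)]; exact h.r151,
    by rw [hf.reg 163 (by decide)]; exact h.r163,
    by rw [hf.arr 143 (by decide)]; exact h.a141, by rw [hf.arr 144 (by decide)]; exact h.a142,
    by rw [hf.reg 4 (by decide)]; exact h.l1, by rw [hf.reg 4 (by decide)]; exact h.l2,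
    by rw [hf.reg 4 (by decide)]; exact h.l3, by rw [hf.reg 3 (by decide)]; exact h.b1⟩

theorem RowEnv.setReg {P : Pm} {A B : ℕ → ℕ → ℕ} {s : State} (h : RowEnv P A B s) {i v : ℕ}
    (hi : i ∈ [170, 171, 172]) : RowEnv P A B (s.setReg i v) :=
  h.frame (frame_setReg s i v) (by simpa using hi) (by simp)

section
variable {P : Pm} {A B : ℕ → ℕ → ℕ}

theorem row_le {i j : ℕ} (hi : i ≤ P.k) (hj : j ≤ JJ P) :
    j * P.g + i * P.w ≤ JJ P * P.g + P.k * P.w :=
  Nat.add_le_add (Nat.mul_le_mul_right _ hj) (Nat.mul_le_mul_right _ hi)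

theorem step1_le (i : ℕ) (row : ℕ → ℕ) (j : ℕ) : step1 P A i row j ≤ row j + P.w := by
  unfold step1
  split_ifs
  · exact min_le_left _ _
  · exact le_rfl

theorem stepB_le (a : ℕ) (u row : ℕ → ℕ) (j : ℕ) : stepB P B a u row j ≤ u j := by
  unfold stepB
  split_ifs
  · exact min_le_left _ _
  · exact le_rfl

theorem winr_bd {a : ℕ} {row : ℕ → ℕ} (hb : ∀ j ≤ JJ P, row j ≤ j * P.g + a * P.b * P.w) (r : ℕ) :
    ∀ j ≤ JJ P, winr P A a row r j ≤ j * P.g + (a * P.b + r) * P.w := by
  induction r with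
  | zero => exact hb
  | succ r ih =>
    intro j hj
    have h1 := lipc_le P.g (step1 P A (a * P.b + r) (winr P A a row r)) hj
    have h2 := step1_le (P := P) (A := A) (a * P.b + r) (winr P A a row r) j
    have h3 := ih j hj
    have h4 : (a * P.b + (r + 1)) * P.w = (a * P.b + r) * P.w + P.w := by ring
    have h5 : winr P A a row (r + 1) j =
      lipc P.g (step1 P A (a * P.b + r) (winr P A a row r)) (JJ P) j := rfl
    omega

theorem blk_bd (a : ℕ) : ∀ j ≤ JJ P, blk P A B a j ≤ j * P.g + a * P.b * P.w := by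
  induction a with
  | zero => intro j _; simp [blk]
  | succ a ih =>
    intro j hj
    have h1 := lipc_le P.g (stepB P B a (winr P A a (blk P A B a) P.b) (blk P A B a)) hj
    have h2 := stepB_le (P := P) (B := B) a (winr P A a (blk P A B a) P.b) (blk P A B a) j
    have h3 := winr_bd (A := A) ih P.b j hj
    have h4 : (a + 1) * P.b = a * P.b + P.b := by ring
    have h5 : blk P A B (a + 1) j =
      lipc P.g (stepB P B a (winr P A a (blk P A B a) P.b) (blk P A B a)) (JJ P) j := rfl
    rw [h4]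
    omega

theorem winHP_spec {s : State} (hE : RowEnv P A B s) {a r : ℕ} {row : ℕ → ℕ}
    (ha : a < P.K) (hr : r < P.b) (h170 : s.reg 170 = a) (h171 : s.reg 171 = r)
    (hrow : ∀ j ≤ JJ P, s.arr 145 j = row j)
    (hb : ∀ j ≤ JJ P, row j ≤ j * P.g + (a * P.b + r) * P.w) :
    Wp ρ winHP (fun s' => ∀ j ≤ JJ P, s'.arr 145 j =
      lipc P.g (step1 P A (a * P.b + r) row) (JJ P) j) s := by
  unfold winHP
  have hi : a * P.b + r < P.k := by
    have : (a + 1) * P.b ≤ P.K * P.b := Nat.mul_le_mul_right _ ha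
    have e : (a + 1) * P.b = a * P.b + P.b := by ring
    unfold Pm.k; omega
  have hbpos : 0 < P.b := by omega
  have hR : ∀ j ≤ JJ P, row j + P.w ≤ s.reg 3 := by
    intro j hj
    have h1 := hb j hj
    have h2 := row_le (P := P) (i := a * P.b + r + 1) hi hj
    have h3 := hE.b1
    have h6 : (a * P.b + r + 1) * P.w = (a * P.b + r) * P.w + P.w := by ring
    omega
  refine Wp.seqF _ (Wp_copy (fun j => row j + P.w) hE.r163 hE.l1 hR ?_) ?_
  · intro t ht s' hf _
    have e1 : s'.arr 145 t = row t := by rw [hf.arr 145 (by decide)]; exact hrow t ht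
    have e2 : s'.reg 162 = P.w := by rw [hf.reg 162 (by decide)]; exact hE.r151
    simp [e1, e2]
  intro s1 hf1 h1
  have hf1' : Frame s s1 [172] [146] := hf1.mono (by simp [HP.wr, copyHP]) (by simp [HP.wa, copyHP])
  have hE1 : RowEnv P A B s1 := hE.frame hf1' (by simp) (by simp)
  have h170' : s1.reg 170 = a := by rw [hf1'.reg 170 (by decide)]; exact h170
  have h171' : s1.reg 171 = r := by rw [hf1'.reg 171 (by decide)]; exact h171
  have hrow1 : ∀ j ≤ JJ P, s1.arr 145 j = row j := by
    intro j hj; rw [hf1'.arr 145 (by decide)]; exact hrow j hj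
  have hMJ : P.M + P.v ≤ JJ P + 1 := by
    have := Nat.le_mul_of_pos_left P.v hbpos
    unfold JJ; omega
  refine Wp.seqF _ (Wp_shift (V := P.v) (M := P.M) (J := JJ P) (fun j => row j + P.w)
    (fun t => row t + A (a * P.b + r) t) hE1.r146 hMJ
    (by have := hE1.l1; unfold JJ at this; omega) h1 ?_ ?_ ?_) ?_
  · intro j hj
    rw [hf1'.reg 3 (by decide)]; exact hR j hj
  · intro s' hs'
    simp only [reg_eval]
    rw [hs'.reg 160 (by decide)]; exact hE1.r143
  · intro t ht s' hf
    have e0 : s'.arr 145 t = row t := by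
      rw [hf.arr 145 (by decide)]; exact hrow1 t (by unfold JJ; omega)
    have e1 : s'.reg 170 = a := by rw [hf.reg 170 (by decide)]; exact h170'
    have e2 : s'.reg 171 = r := by rw [hf.reg 171 (by decide)]; exact h171'
    have e3 : s'.reg 146 = P.b := by rw [hf.reg 146 (by decide)]; exact hE1.r144
    have e4 : s'.reg 161 = P.M := by rw [hf.reg 161 (by decide)]; exact hE1.r146
    have e5 : s'.arr 143 ((a * P.b + r) * P.M + t) = A (a * P.b + r) t := by
      rw [hf.arr 143 (by decide)]; exact hE1.a141 _ hi t ht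
    simp [e0, e1, e2, e3, e4, e5]
  intro s2 hf2 h2
  have hf2' : Frame s1 s2 [172] [146] :=
    hf2.mono (by simp [HP.wr, shiftHP]) (by simp [HP.wa, shiftHP])
  have hE2 : RowEnv P A B s2 := hE1.frame hf2' (by simp) (by simp)
  have h2' : ∀ j ≤ JJ P, s2.arr 146 j = step1 P A (a * P.b + r) row j := by
    intro j hj
    rw [h2 j hj]; rfl
  refine (Wp_lip (D := 145) (β := 0) (Z := fun _ => 0) (by decide) hE2.r142 hE2.r163
    (by have := hE2.l1; omega) h2' ?_ (fun s' _ => rfl) (fun a ha => absurd ha (by omega))).mono ?_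
  · intro j hj
    have h3 := step1_le (P := P) (A := A) (a * P.b + r) row j
    have h4 := hR j hj
    rw [hf2'.reg 3 (by decide), hf1'.reg 3 (by decide)]
    omega
  · intro s' h j hj
    have := h.1 j hj
    rwa [Nat.zero_add] at this

theorem wrwa_win : winHP.wr = [172, 172, 172, 172] ∧ winHP.wa = [146, 146, 146, 145, 145] := by
  constructor <;> rfl

theorem blkHP_spec {s : State} (hE : RowEnv P A B s) {a : ℕ} (ha : a < P.K)
    (h170 : s.reg 170 = a)
    (hrow : ∀ a' ≤ a, ∀ j ≤ JJ P, s.arr 147 (a' * (JJ P + 1) + j) = blk P A B a' j) :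
    Wp ρ blkHP (fun s' => ∀ a' ≤ a + 1, ∀ j ≤ JJ P,
      s'.arr 147 (a' * (JJ P + 1) + j) = blk P A B a' j) s := by
  unfold blkHP
  have hbd := blk_bd (P := P) (A := A) (B := B) a
  have hk1 : a * P.b ≤ P.k := Nat.mul_le_mul_right _ (by omega)
  refine Wp.seqF _ (Wp_copy (J := JJ P) (fun j => blk P A B a j) hE.r163 hE.l1 ?_ ?_) ?_
  · intro j hj
    have h1 := hbd j hj
    have h2 := row_le (P := P) hk1 hj
    have h3 := hE.b1
    omega
  · intro t ht s' hf _
    have e1 : s'.arr 147 (a * (JJ P + 1) + t) = blk P A B a t := by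
      rw [hf.arr 147 (by decide)]; exact hrow a le_rfl t ht
    have e2 : s'.reg 170 = a := by rw [hf.reg 170 (by decide)]; exact h170
    have e3 : s'.reg 163 = JJ P := by rw [hf.reg 163 (by decide)]; exact hE.r163
    simp [e1, e2, e3, eRow]
  intro s1 hf1 h1
  have hf1' : Frame s s1 [172] [145] := hf1.mono (by simp [HP.wr, copyHP]) (by simp [HP.wa, copyHP])
  have hE1 : RowEnv P A B s1 := hE.frame hf1' (by simp) (by simp)
  have h170' : s1.reg 170 = a := by rw [hf1'.reg 170 (by decide)]; exact h170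
  refine Wp.seqF (fun s' => ∀ j ≤ JJ P, s'.arr 145 j = winr P A a (blk P A B a) P.b j) ?_ ?_
  · refine Wp.loopF P.b (by simp [hE1.r144]) hE1.l3
      (fun t s' => ∀ j ≤ JJ P, s'.arr 145 j = winr P A a (blk P A B a) t j) h1 ?_
      (fun s' _ h => h)
    intro t ht s' hf hI
    have hf' : Frame s1 s' [171, 172] [145, 146] :=
      hf.mono (by rw [wrwa_win.1]; simp) (by rw [wrwa_win.2]; simp)
    have hE' : RowEnv P A B s' := hE1.frame hf' (by simp) (by simp)
    refine winHP_spec (hE'.setReg (i := 171) (v := t) (by simp)) ha ht ?_ (by simp) ?_ ?_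
    · simp only [State.setReg_reg]
      rw [if_neg (by decide), hf'.reg 170 (by decide)]; exact h170'
    · intro j hj; exact hI j hj
    · exact winr_bd hbd t
  intro s2 hf2 h2
  have hf2' : Frame s1 s2 [171, 172] [145, 146] :=
    hf2.mono (by simp only [HP.wr]; rw [wrwa_win.1]; simp)
      (by simp only [HP.wa]; rw [wrwa_win.2]; simp)
  have hE2 : RowEnv P A B s2 := hE1.frame hf2' (by simp) (by simp)
  have h170'' : s2.reg 170 = a := by rw [hf2'.reg 170 (by decide)]; exact h170'
  have hrow2 : ∀ a' ≤ a, ∀ j ≤ JJ P, s2.arr 147 (a' * (JJ P + 1) + j) = blk P A B a' j := by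
    intro a' ha' j hj
    rw [hf2'.arr 147 (by decide), hf1'.arr 147 (by decide)]; exact hrow a' ha' j hj
  have hbd2 : ∀ j ≤ JJ P, winr P A a (blk P A B a) P.b j ≤ s.reg 3 := by
    intro j hj
    have g1 := winr_bd (A := A) hbd P.b j hj
    have g2 : a * P.b + P.b = (a + 1) * P.b := by ring
    have g3 : (a + 1) * P.b ≤ P.k := Nat.mul_le_mul_right _ ha
    have g4 := row_le (P := P) g3 hj
    have g5 := hE.b1
    rw [g2] at g1
    omega
  have r3 : s2.reg 3 = s.reg 3 := by rw [hf2'.reg 3 (by decide), hf1'.reg 3 (by decide)]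
  refine Wp.seqF _ (Wp_copy (J := JJ P) (fun j => winr P A a (blk P A B a) P.b j) hE2.r163 hE2.l1
    (fun j hj => by rw [r3]; exact hbd2 j hj) ?_) ?_
  · intro t ht s' hf _
    have e1 : s'.arr 145 t = winr P A a (blk P A B a) P.b t := by
      rw [hf.arr 145 (by decide)]; exact h2 t ht
    simp [e1]
  intro s3 hf3 h3
  have hf3' : Frame s2 s3 [172] [146] :=
    hf3.mono (by simp [HP.wr, copyHP]) (by simp [HP.wa, copyHP])
  have hE3 : RowEnv P A B s3 := hE2.frame hf3' (by simp) (by simp)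
  have h170c : s3.reg 170 = a := by rw [hf3'.reg 170 (by decide)]; exact h170''
  have hrow3 : ∀ a' ≤ a, ∀ j ≤ JJ P, s3.arr 147 (a' * (JJ P + 1) + j) = blk P A B a' j := by
    intro a' ha' j hj
    rw [hf3'.arr 147 (by decide)]; exact hrow2 a' ha' j hj
  refine Wp.seqF _ (Wp_shift (V := P.b * P.v) (M := P.M) (J := JJ P)
    (fun j => winr P A a (blk P A B a) P.b j) (fun t => blk P A B a t + B a t) hE3.r146
    (by unfold JJ; omega) (by have := hE3.l1; unfold JJ at this; omega) h3 ?_ ?_ ?_) ?_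
  · intro j hj
    rw [hf3'.reg 3 (by decide), r3]; exact hbd2 j hj
  · intro s' hs'
    simp only [emul_eval, reg_eval]
    rw [hs'.reg 146 (by decide), hs'.reg 160 (by decide), hE3.r144, hE3.r143]
  · intro t ht s' hf
    have e0 : s'.arr 147 (a * (JJ P + 1) + t) = blk P A B a t := by
      rw [hf.arr 147 (by decide)]; exact hrow3 a le_rfl t (by unfold JJ; omega)
    have e1 : s'.reg 170 = a := by rw [hf.reg 170 (by decide)]; exact h170c
    have e2 : s'.reg 163 = JJ P := by rw [hf.reg 163 (by decide)]; exact hE3.r163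
    have e4 : s'.reg 161 = P.M := by rw [hf.reg 161 (by decide)]; exact hE3.r146
    have e5 : s'.arr 144 (a * P.M + t) = B a t := by
      rw [hf.arr 144 (by decide)]; exact hE3.a142 _ ha t ht
    simp [e0, e1, e2, e4, e5, eRow]
  intro s4 hf4 h4
  have hf4' : Frame s3 s4 [172] [146] :=
    hf4.mono (by simp [HP.wr, shiftHP]) (by simp [HP.wa, shiftHP])
  have hE4 : RowEnv P A B s4 := hE3.frame hf4' (by simp) (by simp)
  have h170d : s4.reg 170 = a := by rw [hf4'.reg 170 (by decide)]; exact h170c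
  have h4' : ∀ j ≤ JJ P, s4.arr 146 j =
      stepB P B a (winr P A a (blk P A B a) P.b) (blk P A B a) j := by
    intro j hj
    rw [h4 j hj]; rfl
  refine (Wp_lip (D := 147) (β := (a + 1) * (JJ P + 1)) (Z := s4.arr 147) (by decide) hE4.r142
    hE4.r163 (by have := hE4.l1; omega) h4' ?_ ?_ (fun a ha => rfl)).mono ?_
  · intro j hj
    rw [hf4'.reg 3 (by decide), hf3'.reg 3 (by decide), r3]
    exact (stepB_le _ _ _ _).trans (hbd2 j hj)
  · intro s' hs'
    simp only [eRow1, emul_eval, eadd_eval, reg_eval, lit_eval]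
    rw [hs'.reg 170 (by decide), hs'.reg 163 (by decide), h170d, hE4.r163]
  · intro s' h a' ha' j hj
    rcases Nat.lt_or_ge a a' with hlt | hle
    · obtain rfl : a' = a + 1 := by omega
      exact h.1 j hj
    · have hlt : a' * (JJ P + 1) + j < (a + 1) * (JJ P + 1) := by
        have : (a' + 1) * (JJ P + 1) ≤ (a + 1) * (JJ P + 1) := Nat.mul_le_mul_right _ (by omega)
        have e : (a' + 1) * (JJ P + 1) = a' * (JJ P + 1) + (JJ P + 1) := by ring
        omega
      rw [h.2 _ hlt, hf4'.arr 147 (by decide)]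
      exact hrow3 a' hle j hj

theorem wrwa_blk : (∀ k ∈ blkHP.wr, k ∈ [171, 172]) ∧ ∀ k ∈ blkHP.wa, k ∈ [145, 146, 147] := by
  constructor <;> decide

/-- **The sweep program computes all block rows.** -/
theorem sweepHP_spec {s : State} (hE : RowEnv P A B s) :
    Wp ρ sweepHP (fun s' => ∀ a ≤ P.K, ∀ j ≤ JJ P,
      s'.arr 147 (a * (JJ P + 1) + j) = blk P A B a j) s := by
  unfold sweepHP
  refine Wp.seqF _ (Wp_copy (J := JJ P) (fun j => blk P A B 0 j) hE.r163 hE.l1 ?_ ?_) ?_
  · intro j hj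
    have h2 : j * P.g ≤ JJ P * P.g := Nat.mul_le_mul_right _ hj
    have h3 := hE.b1
    have h4 : blk P A B 0 j = j * P.g := rfl
    omega
  · intro t ht s' hf _
    have e1 : s'.reg 144 = P.g := by rw [hf.reg 144 (by decide)]; exact hE.r142
    simp [e1, blk]
  intro s1 hf1 h1
  have hf1' : Frame s s1 [172] [147] := hf1.mono (by simp [HP.wr, copyHP]) (by simp [HP.wa, copyHP])
  have hE1 : RowEnv P A B s1 := hE.frame hf1' (by simp) (by simp)
  refine Wp.loopF P.K (by simp [hE1.r145]) hE1.l2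
    (fun t s' => ∀ a' ≤ t, ∀ j ≤ JJ P, s'.arr 147 (a' * (JJ P + 1) + j) = blk P A B a' j)
    ?_ ?_ (fun s' _ h => h)
  · intro a' ha' j hj
    obtain rfl : a' = 0 := by omega
    rw [Nat.zero_mul, Nat.zero_add]; exact h1 j hj
  intro t ht s' hf hI
  have hE' : RowEnv P A B s' := hE1.frame hf
    (fun k hk => by
      rcases List.mem_cons.mp hk with rfl | hk
      · simp
      · have := wrwa_blk.1 k hk; simp at this ⊢; tauto)
    (fun k hk => wrwa_blk.2 k hk)
  exact blkHP_spec (hE'.setReg (i := 170) (v := t) (by simp)) ht (by simp) hI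

/-- The state condition of `Rows.lean` suffices. -/
theorem RowEnv.of_rows {s : State} (h : H142.RowEnv P A B s) : RowEnv P A B s :=
  ⟨h.r144, h.r160, h.r146, h.r147, h.r161, h.r162, h.r163, h.a143, h.a144, h.l1, h.l2, h.l3, h.b1⟩

theorem wrwa_sweep : (∀ k ∈ sweepHP.wr, k ∈ [170, 171, 172]) ∧
    ∀ k ∈ sweepHP.wa, k ∈ [145, 146, 147] := by
  constructor <;> decide

theorem sweep_ok : sweepHP.ok 1 50 = true := by decide

theorem sweep_bigs : sweepHP.bigs = [] := rfl

theorem sweep_depth : sweepHP.depth = 3 := rfl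

end

end Vale.Agent.P315.H142.Sweep2
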