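import Vale.Agent.P315.H142.Rec
import Vale.Agent.P315.H36.Avg

/-! The value of the base algorithm as a pure function of the hubs and the sampled offsets, its
soundness and its average. -/

set_option autoImplicit false

namespace Vale.Agent.P315.H142

open Vale.Agent.P315 Vale.Agent.P315.H36

section
variable (P : Pm)

/-- The window table: `t` hubs used. -/
def Aof (hub : ℕ → ℕ) (i j : ℕ) : ℕ → ℕ
  | 0 => 2 * P.w
  | t + 1 => min (Aof hub i j t) (P.dxy i (hub t) + P.dyy (hub t) j)

/-- `j'` comes before `j` in the list of the grid points ordered by the distance to window `i`. -/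
def Bef (i j' j : ℕ) : Prop := P.dxy i j' < P.dxy i j ∨ (P.dxy i j' = P.dxy i j ∧ j' < j)

instance (i j' j : ℕ) : Decidable (Bef P i j' j) := by unfold Bef; infer_instance

/-- Rank of the grid point `j` for window `i`. -/
def rk (i j : ℕ) : ℕ := ((Finset.range P.M).filter (fun j' => Bef P i j' j)).card

/-- The `d` nearest grid points. -/
def nearS (i : ℕ) : Finset ℕ := (Finset.range P.M).filter (fun j => rk P i j < P.d)

/-- Served diagonals. -/
def served (R : ℕ) (off : ℕ → ℕ) (a Q : ℕ) : Prop :=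
  ∃ t, t < R ∧ ∃ j, j < P.M ∧ rk P (a * P.b + off t) j < P.d ∧ j - off t * P.v = Q

open Classical in
/-- The block table. -/
noncomputable def Bof (R : ℕ) (off : ℕ → ℕ) (a Q : ℕ) : ℕ :=
  if served P R off a Q then min (2 * (P.b * P.w)) (P.dbl (a * P.b) Q) else 2 * (P.b * P.w)

/-- The value of the base algorithm. -/
noncomputable def startVal (s : ℕ) (hub : ℕ → ℕ) (R : ℕ) (off : ℕ → ℕ) : ℕ :=
  outF P (fun i j => Aof P hub i j s) (Bof P R off)

end

section
variable {P : Pm}

theorem Aof_le_two (hub : ℕ → ℕ) (i j s : ℕ) : Aof P hub i j s ≤ 2 * P.w := by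
  induction s with
  | zero => exact le_rfl
  | succ s ih => exact (min_le_left _ _).trans ih

theorem Aof_le (hub : ℕ → ℕ) (i j : ℕ) {s t : ℕ} (ht : t < s) :
    Aof P hub i j s ≤ P.dxy i (hub t) + P.dyy (hub t) j := by
  induction s with
  | zero => omega
  | succ s ih =>
    rcases Nat.lt_succ_iff_lt_or_eq.mp ht with h | h
    · exact (min_le_left _ _).trans (ih h)
    · subst h; exact min_le_right _ _

theorem dxy_le (i j : ℕ) : P.dxy i j ≤ 2 * P.w := by
  unfold Pm.dxy
  have := dist_le P.X P.Y (P.px + i * P.w) P.w (P.py + j * P.g) P.w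
  omega

theorem dbl_le (i j : ℕ) : P.dbl i j ≤ 2 * (P.b * P.w) := by
  unfold Pm.dbl
  have := dist_le P.X P.Y (P.px + i * P.w) (P.b * P.w) (P.py + j * P.g) (P.b * P.w)
  omega

theorem dxy_tri (i h j : ℕ) : P.dxy i j ≤ P.dxy i h + P.dyy h j := dist_tri _ _ _ _ _ _ _ _ _

theorem le_Aof (hub : ℕ → ℕ) (i j s : ℕ) : P.dxy i j ≤ Aof P hub i j s := by
  induction s with
  | zero => exact dxy_le i j
  | succ s ih => exact le_min ih (dxy_tri i _ j)

theorem le_Bof (R : ℕ) (off : ℕ → ℕ) (a Q : ℕ) : P.dbl (a * P.b) Q ≤ Bof P R off a Q := by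
  classical
  unfold Bof
  split_ifs
  · exact le_min (dbl_le _ _) le_rfl
  · exact dbl_le _ _

theorem low_of (hub : ℕ → ℕ) (s R : ℕ) (off : ℕ → ℕ) :
    Low P (fun i j => Aof P hub i j s) (Bof P R off) :=
  ⟨fun i _ j _ => le_Aof hub i j s, fun a _ j _ => le_Bof R off a j⟩

/-- Soundness. -/
theorem startVal_ge (hP : P.Ok) (s : ℕ) (hub : ℕ → ℕ) (R : ℕ) (off : ℕ → ℕ) :
    P.D ≤ startVal P s hub R off := outF_ge hP (low_of hub s R off)

/-! ### The nearest grid points -/

theorem Bef.trans {i a b c : ℕ} (h : Bef P i a b) (h' : Bef P i b c) : Bef P i a c := by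
  unfold Bef at *; omega

theorem Bef.irrefl {i a : ℕ} : ¬ Bef P i a a := by unfold Bef; omega

theorem Bef.total {i a b : ℕ} (h : a ≠ b) : Bef P i a b ∨ Bef P i b a := by
  unfold Bef; omega

theorem rk_lt {i a b : ℕ} (ha : a < P.M) (h : Bef P i a b) : rk P i a < rk P i b := by
  unfold rk
  apply Finset.card_lt_card
  rw [Finset.ssubset_iff_of_subset]
  · exact ⟨a, Finset.mem_filter.mpr ⟨Finset.mem_range.mpr ha, h⟩, fun hh =>
      Bef.irrefl (Finset.mem_filter.mp hh).2⟩
  · intro c hc
    rw [Finset.mem_filter] at hc ⊢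
    exact ⟨hc.1, hc.2.trans h⟩

theorem rk_lt_M {i a : ℕ} (ha : a < P.M) : rk P i a < P.M := by
  unfold rk
  have h : (Finset.range P.M).filter (fun j' => Bef P i j' a) ⊂ Finset.range P.M := by
    rw [Finset.ssubset_iff_of_subset (Finset.filter_subset _ _)]
    exact ⟨a, Finset.mem_range.mpr ha, fun hh => Bef.irrefl (Finset.mem_filter.mp hh).2⟩
  simpa using Finset.card_lt_card h

theorem rk_inj {i a b : ℕ} (ha : a < P.M) (hb : b < P.M) (h : rk P i a = rk P i b) : a = b := by
  by_contra hne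
  rcases Bef.total (P := P) (i := i) hne with h1 | h1
  · have := rk_lt ha h1; omega
  · have := rk_lt hb h1; omega

theorem isNear : P.IsNear (nearS P) := by
  refine ⟨?_, ?_, ?_⟩
  · intro i _
    have himg : (Finset.range P.M).image (rk P i) = Finset.range P.M := by
      apply Finset.eq_of_subset_of_card_le
      · intro x hx
        obtain ⟨a, ha, rfl⟩ := Finset.mem_image.mp hx
        exact Finset.mem_range.mpr (rk_lt_M (Finset.mem_range.mp ha))
      · rw [Finset.card_image_of_injOn]
        intro a ha b hb h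
        exact rk_inj (Finset.mem_range.mp ha) (Finset.mem_range.mp hb) h
    have h1 : Finset.range (min P.d P.M) ⊆ (nearS P i).image (rk P i) := by
      intro x hx
      have hx := Finset.mem_range.mp hx
      have hx2 : x ∈ (Finset.range P.M).image (rk P i) := by
        rw [himg]; exact Finset.mem_range.mpr (by omega)
      obtain ⟨a, ha, rfl⟩ := Finset.mem_image.mp hx2
      exact Finset.mem_image.mpr ⟨a, Finset.mem_filter.mpr ⟨ha, by omega⟩, rfl⟩
    calc min P.d P.M = (Finset.range (min P.d P.M)).card := (Finset.card_range _).symm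
      _ ≤ ((nearS P i).image (rk P i)).card := Finset.card_le_card h1
      _ ≤ (nearS P i).card := Finset.card_image_le
  · intro i _ j hj
    exact Finset.mem_range.mp (Finset.mem_filter.mp hj).1
  · intro i _ j hj j' hj' hn
    have h1 := (Finset.mem_filter.mp hj).2
    have h2 := Finset.mem_range.mp (Finset.mem_filter.mp hj).1
    by_contra hlt
    have h3 : Bef P i j' j := Or.inl (by omega)
    have h4 := rk_lt hj' h3
    exact hn (Finset.mem_filter.mpr ⟨Finset.mem_range.mpr hj', by omega⟩)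

/-- **The value satisfies all upper bounds.** -/
theorem startVal_tab (hP : P.Ok) {s R : ℕ} {hub off : ℕ → ℕ} {piv smp : Finset ℕ}
    (hpiv : ∀ p ∈ piv, ∃ t, t < s ∧ hub t = p) (hsmp : ∀ r ∈ smp, ∃ t, t < R ∧ off t = r) :
    P.Tab (fun i j => Aof P hub i j s) (Bof P R off)
      (FF P (fun i j => Aof P hub i j s) (Bof P R off)) (startVal P s hub R off) piv smp
      (nearS P) := by
  classical
  refine tab_FF hP (fun i _ j _ => Aof_le_two hub i j s) ?_ ?_
  · intro i _ j _ p hp
    obtain ⟨t, ht, rfl⟩ := hpiv p hp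
    exact Aof_le hub i j ht
  · intro a _ r hr j hj
    obtain ⟨t, ht, rfl⟩ := hsmp r hr
    have hj' := Finset.mem_filter.mp hj
    have hs : served P R off a (j - off t * P.v) :=
      ⟨t, ht, j, Finset.mem_range.mp hj'.1, hj'.2, rfl⟩
    unfold Bof
    rw [if_pos hs]
    exact min_le_right _ _

/-- Extension of a function on `Fin s` by `0`. -/
def ext0 {s M : ℕ} (p : Fin s → Fin M) (t : ℕ) : ℕ := if h : t < s then (p ⟨t, h⟩ : ℕ) else 0

theorem ext0_apply {s M : ℕ} (p : Fin s → Fin M) (t : Fin s) : ext0 p t = p t := by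
  simp [ext0]

/-- **The base algorithm: average over the hubs and the offsets.** -/
theorem avg_startVal (hP : P.Ok) {s R : ℕ} (hs : 0 < s * P.d) :
    (∑ p : Fin s → Fin P.M, ∑ r : Fin R → Fin P.b,
      (startVal P s (ext0 p) R (ext0 r) : ℝ)) ≤ (P.M : ℝ) ^ s * (P.b : ℝ) ^ R *
      (10 * P.D + 11 * (P.b * P.w) + P.g + 8 * P.g * P.k +
        2 * P.w * P.k * ((P.M : ℝ) / (s * P.d) + 1 / (R + 1))) := by
  refine avg_out hP (fun p r => startVal P s (ext0 p) R (ext0 r)) hs (fun p r => ?_)
  refine ⟨_, _, _, nearS P, startVal_tab hP ?_ ?_, isNear⟩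
  · intro x hx
    obtain ⟨t, -, rfl⟩ := Finset.mem_image.mp hx
    exact ⟨t, t.2, ext0_apply p t⟩
  · intro x hx
    obtain ⟨t, -, rfl⟩ := Finset.mem_image.mp hx
    exact ⟨t, t.2, ext0_apply r t⟩

end

end Vale.Agent.P315.H142
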