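import Vale.Agent.P315.H933.Fit
import Vale.Agent.P315.H54.GoodOne
import Vale.Agent.P315.H36.VisL

set_option autoImplicit false
/-! The table of the START phase in the feed (`H933.visG`, seeds behind the seeds of the strategy) is
the leaf `H54.visC` of `good2_one` with `o = N`. -/


namespace Vale.Agent.P315.H142

open Vale.Agent.P315 Vale.Agent.P315.H36 Vale.Agent.P315.H54 Vale.Agent.P315.H486
open Vale.Agent.P315.H933 Vale.Agent.P315.RAM

/-- The two readings of an array agree. -/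
theorem ofFin_eq_arrOf {n e : ℕ} (c : Fin n → Fin e) : ofFin c = H659.arrOf c := by
  funext i
  rfl

/-- The table of the program read at mesh points is the leaf of `good2_one`. -/
theorem getD_visG {G : StF (ℕ × ℕ)} {x y : List ℕ} {N NS e i p p' : ℕ} (c : Fin (N + NS) → Fin e)
    (h : G.nSd (len2 x y) ≤ NS) (hd : (G.tb (len2 x y)).mu ∣ (G.tb (len2 x y)).l2)
    (hnE : 2 * (G.tb (len2 x y)).l2 / (G.tb (len2 x y)).mu < (G.tb (len2 x y)).nE)
    (hi : i < (G.tb (len2 x y)).Kr) (hp : (G.tb (len2 x y)).mu ∣ p)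
    (hp' : (G.tb (len2 x y)).mu ∣ p') (hs : p / (G.tb (len2 x y)).mu < (G.tb (len2 x y)).nS)
    (h1 : p ≤ p' + (G.tb (len2 x y)).l2) (h2 : p' ≤ p + (G.tb (len2 x y)).l2) :
    (visG G x y (MulF.sdL N NS (ofFin c))).getD
      ((i * (G.tb (len2 x y)).nS + p / (G.tb (len2 x y)).mu) * (G.tb (len2 x y)).nE +
        (p' + (G.tb (len2 x y)).l2 - p) / (G.tb (len2 x y)).mu) 0 =
      visC (G.q (len2 x y)) x y (G.tb (len2 x y)).l2 (G.tb (len2 x y)).c0 c N i p p' := by
  rw [visG_sdL h, getD_mesh hd hnE hi hp hp' hs h1 h2]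
  rfl

end Vale.Agent.P315.H142
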